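import Vale.Agent.Lib.P335.Gr.Defs

/-!
# Basic facts on graph class averages

`gavg W` is linear, symmetric for the counting inner product, idempotent, and satisfies the
tower property. (The same development as for tables, transported to graph classes.)
-/

namespace Vale.Agent.Lib.P335.Gr

open Finset
open Classical
open Vale.Agent.Lib.P335.Bip (ip)

variable {n : ℕ} {d : Fin n → ℕ}

theorem GAgree.refl (W : Finset (Fin n)) (E : Finset (Sym2 (Fin n))) : GAgree W E E :=
  fun _ _ _ _ => Iff.rfl

theorem GAgree.symm {W : Finset (Fin n)} {E E' : Finset (Sym2 (Fin n))} (h : GAgree W E E') :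
    GAgree W E' E := fun a b ha hb => (h a b ha hb).symm

theorem GAgree.trans {W : Finset (Fin n)} {E E' E'' : Finset (Sym2 (Fin n))}
    (h1 : GAgree W E E') (h2 : GAgree W E' E'') : GAgree W E E'' :=
  fun a b ha hb => (h1 a b ha hb).trans (h2 a b ha hb)

theorem GAgree.mono {W W' : Finset (Fin n)} (hW : W ⊆ W') {E E' : Finset (Sym2 (Fin n))}
    (h : GAgree W E E') : GAgree W' E E' :=
  fun a b ha hb => h a b (fun ha' => ha (hW ha')) (fun hb' => hb (hW hb'))

theorem mem_gcls (W : Finset (Fin n)) (G G' : Omega d) : G' ∈ gcls W G ↔ GAgree W G.1 G'.1 := by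
  simp [gcls]

theorem self_mem_gcls (W : Finset (Fin n)) (G : Omega d) : G ∈ gcls W G :=
  (mem_gcls W G G).mpr (GAgree.refl W G.1)

theorem gcls_eq_of_mem (W : Finset (Fin n)) (G G' : Omega d) (h : G' ∈ gcls W G) :
    gcls W G' = gcls W G := by
  have hxy : GAgree W G.1 G'.1 := (mem_gcls W G G').mp h
  ext z
  rw [mem_gcls, mem_gcls]
  exact ⟨fun hz => hxy.trans hz, fun hz => hxy.symm.trans hz⟩

theorem gcls_eq_of_agree (W : Finset (Fin n)) (G G' : Omega d) (h : GAgree W G.1 G'.1) :
    gcls W G' = gcls W G :=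
  gcls_eq_of_mem W G G' ((mem_gcls W G G').mpr h)

theorem card_gcls_pos (W : Finset (Fin n)) (G : Omega d) : 0 < (gcls W G).card :=
  card_pos.mpr ⟨G, self_mem_gcls W G⟩

theorem card_gcls_pos_real (W : Finset (Fin n)) (G : Omega d) :
    (0 : ℝ) < ((gcls W G).card : ℝ) := by
  exact_mod_cast card_gcls_pos W G

theorem card_gcls_ne_zero (W : Finset (Fin n)) (G : Omega d) : ((gcls W G).card : ℝ) ≠ 0 :=
  (card_gcls_pos_real W G).ne'

theorem gcls_subset_of_subset {W W' : Finset (Fin n)} (hW : W ⊆ W') (G : Omega d) :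
    gcls W G ⊆ gcls W' G := by
  intro y hy
  rw [mem_gcls] at hy ⊢
  exact hy.mono hW

theorem gavg_apply (W : Finset (Fin n)) (f : Omega d → ℝ) (G : Omega d) :
    gavg W f G = (∑ G' ∈ gcls W G, f G') / ((gcls W G).card : ℝ) := rfl

theorem gavg_add (W : Finset (Fin n)) (f g : Omega d → ℝ) :
    gavg W (f + g) = gavg W f + gavg W g := by
  funext x
  simp only [gavg_apply, Pi.add_apply, sum_add_distrib, add_div]

theorem gavg_smul (W : Finset (Fin n)) (a : ℝ) (f : Omega d → ℝ) :
    gavg W (a • f) = a • gavg W f := by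
  funext x
  simp only [gavg_apply, Pi.smul_apply, smul_eq_mul, ← mul_sum, mul_div_assoc]

theorem gavg_apply_of_agree (W : Finset (Fin n)) (f : Omega d → ℝ) (G G' : Omega d)
    (h : GAgree W G.1 G'.1) : gavg W f G = gavg W f G' := by
  rw [gavg_apply, gavg_apply, gcls_eq_of_agree W G G' h]

/-- `gavg W f G` written as a sum over all graphs. -/
theorem gavg_apply_univ (W : Finset (Fin n)) (f : Omega d → ℝ) (G : Omega d) :
    gavg W f G = ∑ G' : Omega d,
      if GAgree W G.1 G'.1 then f G' / ((gcls W G).card : ℝ) else 0 := by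
  rw [gavg_apply, sum_div, gcls, sum_filter]

theorem gavg_symm (W : Finset (Fin n)) (f g : Omega d → ℝ) :
    ip (gavg W f) g = ip f (gavg W g) := by
  unfold ip
  have h1 : ∑ x : Omega d, gavg W f x * g x
      = ∑ x : Omega d, ∑ y : Omega d,
          if GAgree W x.1 y.1 then f y * g x / ((gcls W x).card : ℝ) else 0 := by
    refine sum_congr rfl fun x _ => ?_
    rw [gavg_apply_univ, sum_mul]
    refine sum_congr rfl fun y _ => ?_
    split_ifs
    · ring
    · simp
  have h2 : ∑ x : Omega d, f x * gavg W g x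
      = ∑ x : Omega d, ∑ y : Omega d,
          if GAgree W x.1 y.1 then f x * g y / ((gcls W x).card : ℝ) else 0 := by
    refine sum_congr rfl fun x _ => ?_
    rw [gavg_apply_univ, mul_sum]
    refine sum_congr rfl fun y _ => ?_
    split_ifs
    · ring
    · simp
  rw [h1, h2, sum_comm]
  refine sum_congr rfl fun y _ => sum_congr rfl fun x _ => ?_
  by_cases h : GAgree W x.1 y.1
  · rw [if_pos h, if_pos h.symm, gcls_eq_of_agree W x y h]
  · have h' : ¬ GAgree W y.1 x.1 := fun hh => h hh.symm
    rw [if_neg h, if_neg h']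

theorem gavg_eq_self_iff (W : Finset (Fin n)) (f : Omega d → ℝ) :
    gavg W f = f ↔ ∀ G G' : Omega d, GAgree W G.1 G'.1 → f G = f G' := by
  constructor
  · intro h x y hxy
    rw [← h]
    exact gavg_apply_of_agree W f x y hxy
  · intro h
    funext x
    rw [gavg_apply]
    have h1 : ∑ y ∈ gcls W x, f y = ∑ _y ∈ gcls W x, f x :=
      sum_congr rfl fun y hy => (h x y ((mem_gcls W x y).mp hy)).symm
    rw [h1, sum_const, nsmul_eq_mul]
    field_simp [card_gcls_ne_zero W x]

theorem gavg_idem (W : Finset (Fin n)) (f : Omega d → ℝ) : gavg W (gavg W f) = gavg W f :=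
  (gavg_eq_self_iff W (gavg W f)).mpr fun x y hxy => gavg_apply_of_agree W f x y hxy

/-- Two functions with the same inner product against every function are equal. -/
theorem eq_of_ip_eq {α : Type} [Fintype α] (h h' : α → ℝ)
    (hh : ∀ g : α → ℝ, ip h g = ip h' g) : h = h' := by
  funext x
  have := hh (fun y => if y = x then 1 else 0)
  unfold ip at this
  simpa using this

theorem gavg_tower (W W' : Finset (Fin n)) (h : W ⊆ W') (f : Omega d → ℝ) :
    gavg W' (gavg W f) = gavg W' f ∧ gavg W (gavg W' f) = gavg W' f := by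
  have h2 : ∀ g : Omega d → ℝ, gavg W (gavg W' g) = gavg W' g := by
    intro g
    exact (gavg_eq_self_iff W (gavg W' g)).mpr fun x y hxy =>
      gavg_apply_of_agree W' g x y (hxy.mono h)
  refine ⟨?_, h2 f⟩
  apply eq_of_ip_eq
  intro g
  rw [gavg_symm, gavg_symm, h2 g, gavg_symm]

/-- Averages of constants. -/
theorem gavg_const (W : Finset (Fin n)) (a : ℝ) :
    gavg W (fun _ : Omega d => a) = fun _ => a :=
  (gavg_eq_self_iff W _).mpr fun _ _ _ => rfl

theorem gavg_sub (W : Finset (Fin n)) (f g : Omega d → ℝ) :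
    gavg W (f - g) = gavg W f - gavg W g := by
  funext x
  simp only [gavg_apply, Pi.sub_apply, sum_sub_distrib, sub_div]

theorem gavg_zero (W : Finset (Fin n)) : gavg W (0 : Omega d → ℝ) = 0 := by
  funext x
  simp [gavg_apply]

/-- `ip f (gavg W f) = ip (gavg W f) (gavg W f)`: the average is an orthogonal projection. -/
theorem ip_gavg_self (W : Finset (Fin n)) (f : Omega d → ℝ) :
    ip f (gavg W f) = ip (gavg W f) (gavg W f) := by
  rw [gavg_symm W f (gavg W f), gavg_idem]

theorem ip_gavg_nonneg (W : Finset (Fin n)) (f : Omega d → ℝ) : 0 ≤ ip f (gavg W f) := by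
  rw [ip_gavg_self]
  unfold ip
  exact sum_nonneg fun x _ => mul_self_nonneg _

end Vale.Agent.Lib.P335.Gr
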