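import Vale.Agent.Lib.P335.H23.SwitchGap
import Vale.Agent.Lib.P335.Bip.Defs

/-!
# Graph classes: conditioning on the graph outside a vertex set (problem P335)

For a vertex set `W`, two graphs agree off `W` when they induce the same graph on the
complement of `W`. The class of `G` consists of all realizations of the degree sequence that
agree with `G` off `W`; `gavg W` is the conditional expectation given the graph off `W`.
-/

namespace Vale.Agent.Lib.P335.Gr

open Finset
open Classical

variable {n : ℕ} {d : Fin n → ℕ}

/-- The edge sets `E` and `E'` induce the same graph on the complement of `W`. -/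
def GAgree (W : Finset (Fin n)) (E E' : Finset (Sym2 (Fin n))) : Prop :=
  ∀ a b, a ∉ W → b ∉ W → (s(a, b) ∈ E ↔ s(a, b) ∈ E')

/-- The class of `G`: all realizations that agree with `G` off `W`. -/
noncomputable def gcls (W : Finset (Fin n)) (G : Omega d) : Finset (Omega d) :=
  univ.filter (fun G' : Omega d => GAgree W G.1 G'.1)

/-- Averaging over classes: the conditional expectation given the graph off `W`. -/
noncomputable def gavg (W : Finset (Fin n)) (f : Omega d → ℝ) : Omega d → ℝ :=
  fun G => (∑ G' ∈ gcls W G, f G') / ((gcls W G).card : ℝ)

/-- The energy of `f` over ordered pairs of graphs that differ by one switch and agree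
off `W`. For a pair `W = {u, w}` these are the switches having `{u, w}` as a diagonal. -/
noncomputable def genergy (W : Finset (Fin n)) (f : Omega d → ℝ) : ℝ :=
  ∑ G : Omega d, ∑ G' : Omega d,
    if (GAgree W G.1 G'.1 ∧ H23.SwitchAdj G G') then (f G - f G') ^ 2 else 0

end Vale.Agent.Lib.P335.Gr
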