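import Vale.Agent.Lib.P335.Gr.Avg

/-!
# The flip of the four-cycle between two disjoint vertex pairs (problem P335)

For disjoint pairs `b`, `b'` the four slots between them form a four-cycle. When exactly a
perfect matching of this cycle is present in the graph (the cycle is alternating), the flip
exchanges it for the other perfect matching: this is the switch with diagonals `b`, `b'`.
Otherwise the flip does nothing.
-/

namespace Vale.Agent.Lib.P335.Gr

open Finset
open Classical
open scoped symmDiff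
open Vale.Agent.Lib.P335

variable {n : ℕ} {d : Fin n → ℕ}

/-- The slots between `b` and `b'`. -/
def cross (b b' : Finset (Fin n)) : Finset (Sym2 (Fin n)) :=
  (b ×ˢ b').image (fun p => s(p.1, p.2))

/-- The occupied slots between `b` and `b'` form a perfect matching. -/
def IsAlt (b b' : Finset (Fin n)) (E : Finset (Sym2 (Fin n))) : Prop :=
  (∀ v ∈ b, (b'.filter (fun z => s(v, z) ∈ E)).card = 1) ∧
  (∀ z ∈ b', (b.filter (fun v => s(v, z) ∈ E)).card = 1)

/-- Exchange the two perfect matchings of the four-cycle when it is alternating. -/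
noncomputable def flipSet (b b' : Finset (Fin n)) (E : Finset (Sym2 (Fin n))) : Finset (Sym2 (Fin n)) :=
  if IsAlt b b' E then E ∆ cross b b' else E

/-- The explicit form of the alternating condition. -/
def Alt4 (u w x y : Fin n) (E : Finset (Sym2 (Fin n))) : Prop :=
  (s(u, x) ∈ E ∧ s(w, y) ∈ E ∧ s(u, y) ∉ E ∧ s(w, x) ∉ E) ∨
  (s(u, y) ∈ E ∧ s(w, x) ∈ E ∧ s(u, x) ∉ E ∧ s(w, y) ∉ E)

theorem cross_pair (u w x y : Fin n) :
    cross {u, w} {x, y} = {s(u, x), s(u, y), s(w, x), s(w, y)} := by
  ext e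
  simp only [cross, mem_image, mem_product, mem_insert, mem_singleton, Prod.exists]
  constructor
  · rintro ⟨a, c, ⟨ha, hc⟩, rfl⟩
    rcases ha with rfl | rfl <;> rcases hc with rfl | rfl <;> simp
  · rintro (rfl | rfl | rfl | rfl)
    · exact ⟨u, x, ⟨Or.inl rfl, Or.inl rfl⟩, rfl⟩
    · exact ⟨u, y, ⟨Or.inl rfl, Or.inr rfl⟩, rfl⟩
    · exact ⟨w, x, ⟨Or.inr rfl, Or.inl rfl⟩, rfl⟩
    · exact ⟨w, y, ⟨Or.inr rfl, Or.inr rfl⟩, rfl⟩

theorem cross_comm (b b' : Finset (Fin n)) : cross b b' = cross b' b := by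
  ext e
  simp only [cross, mem_image, mem_product, Prod.exists]
  constructor
  · rintro ⟨a, c, ⟨ha, hc⟩, rfl⟩
    exact ⟨c, a, ⟨hc, ha⟩, Sym2.eq_swap⟩
  · rintro ⟨a, c, ⟨ha, hc⟩, rfl⟩
    exact ⟨c, a, ⟨hc, ha⟩, Sym2.eq_swap⟩

theorem isAlt_comm (b b' : Finset (Fin n)) (E : Finset (Sym2 (Fin n))) :
    IsAlt b b' E ↔ IsAlt b' b E := by
  unfold IsAlt
  constructor
  · rintro ⟨h1, h2⟩
    refine ⟨fun v hv => ?_, fun z hz => ?_⟩
    · rw [← h2 v hv]
      congr 1
      refine filter_congr fun z _ => ?_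
      rw [Sym2.eq_swap]
    · rw [← h1 z hz]
      congr 1
      refine filter_congr fun v _ => ?_
      rw [Sym2.eq_swap]
  · rintro ⟨h1, h2⟩
    refine ⟨fun v hv => ?_, fun z hz => ?_⟩
    · rw [← h2 v hv]
      congr 1
      refine filter_congr fun z _ => ?_
      rw [Sym2.eq_swap]
    · rw [← h1 z hz]
      congr 1
      refine filter_congr fun v _ => ?_
      rw [Sym2.eq_swap]

theorem flipSet_comm (b b' : Finset (Fin n)) (E : Finset (Sym2 (Fin n))) :
    flipSet b b' E = flipSet b' b E := by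
  unfold flipSet
  rw [cross_comm b b']
  by_cases h : IsAlt b b' E
  · rw [if_pos h, if_pos ((isAlt_comm b b' E).mp h)]
  · rw [if_neg h, if_neg (fun h' => h ((isAlt_comm b b' E).mpr h'))]

theorem isAlt_pair {u w x y : Fin n} (huw : u ≠ w) (hxy : x ≠ y)
    (E : Finset (Sym2 (Fin n))) : IsAlt {u, w} {x, y} E ↔ Alt4 u w x y E := by
  unfold IsAlt Alt4
  simp only [forall_mem_insert, mem_singleton, forall_eq]
  by_cases h1 : s(u, x) ∈ E <;> by_cases h2 : s(u, y) ∈ E <;> by_cases h3 : s(w, x) ∈ E <;>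
    by_cases h4 : s(w, y) ∈ E <;>
    simp [filter_insert, filter_singleton, h1, h2, h3, h4, huw, hxy]

theorem mem_cross_of_mem {b b' : Finset (Fin n)} {v z : Fin n} (hv : v ∈ b) (hz : z ∈ b') :
    s(v, z) ∈ cross b b' := by
  unfold cross
  exact mem_image.mpr ⟨(v, z), mem_product.mpr ⟨hv, hz⟩, rfl⟩

theorem not_mem_cross_left {b b' : Finset (Fin n)} {a c : Fin n} (ha : a ∉ b) (hc : c ∉ b) :
    s(a, c) ∉ cross b b' := by
  unfold cross
  intro h
  obtain ⟨p, hp, hpe⟩ := mem_image.mp h
  have hp1 := (mem_product.mp hp).1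
  rcases Sym2.eq_iff.mp hpe with ⟨h1, _⟩ | ⟨h1, _⟩
  · exact ha (h1 ▸ hp1)
  · exact hc (h1 ▸ hp1)

theorem not_mem_cross_right {b b' : Finset (Fin n)} {a c : Fin n} (ha : a ∉ b') (hc : c ∉ b') :
    s(a, c) ∉ cross b b' := by
  rw [cross_comm]
  exact not_mem_cross_left ha hc

/-- The flip does not change the graph off `b`. -/
theorem gagree_flipSet_left (b b' : Finset (Fin n)) (E : Finset (Sym2 (Fin n))) :
    GAgree b E (flipSet b b' E) := by
  intro a c ha hc
  unfold flipSet
  split_ifs with h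
  · rw [mem_symmDiff]
    have := not_mem_cross_left (b' := b') ha hc
    tauto
  · exact Iff.rfl

/-- The flip does not change the graph off `b'`. -/
theorem gagree_flipSet_right (b b' : Finset (Fin n)) (E : Finset (Sym2 (Fin n))) :
    GAgree b' E (flipSet b b' E) := by
  rw [flipSet_comm]
  exact gagree_flipSet_left b' b E

theorem isAlt_symmDiff {b b' : Finset (Fin n)} (hb : b.card = 2) (hb' : b'.card = 2)
    {E : Finset (Sym2 (Fin n))} (h : IsAlt b b' E) : IsAlt b b' (E ∆ cross b b') := by
  obtain ⟨h1, h2⟩ := h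
  refine ⟨fun v hv => ?_, fun z hz => ?_⟩
  · have e1 : b'.filter (fun z => s(v, z) ∈ E ∆ cross b b')
        = b' \ b'.filter (fun z => s(v, z) ∈ E) := by
      ext z
      simp only [mem_filter, mem_sdiff, mem_symmDiff]
      constructor
      · rintro ⟨hz, hh⟩
        have := mem_cross_of_mem hv hz
        tauto
      · rintro ⟨hz, hh⟩
        have := mem_cross_of_mem hv hz
        tauto
    rw [e1, card_sdiff_of_subset (filter_subset _ _), h1 v hv, hb']
  · have e1 : b.filter (fun v => s(v, z) ∈ E ∆ cross b b')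
        = b \ b.filter (fun v => s(v, z) ∈ E) := by
      ext v
      simp only [mem_filter, mem_sdiff, mem_symmDiff]
      constructor
      · rintro ⟨hv, hh⟩
        have := mem_cross_of_mem hv hz
        tauto
      · rintro ⟨hv, hh⟩
        have := mem_cross_of_mem hv hz
        tauto
    rw [e1, card_sdiff_of_subset (filter_subset _ _), h2 z hz, hb]

theorem isAlt_flipSet {b b' : Finset (Fin n)} (hb : b.card = 2) (hb' : b'.card = 2)
    {E : Finset (Sym2 (Fin n))} (h : IsAlt b b' E) : IsAlt b b' (flipSet b b' E) := by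
  unfold flipSet
  rw [if_pos h]
  exact isAlt_symmDiff hb hb' h

/-- The flip is an involution. -/
theorem flipSet_flipSet {b b' : Finset (Fin n)} (hb : b.card = 2) (hb' : b'.card = 2)
    (E : Finset (Sym2 (Fin n))) : flipSet b b' (flipSet b b' E) = E := by
  by_cases h : IsAlt b b' E
  · have h' := isAlt_flipSet hb hb' h
    have e1 : flipSet b b' E = E ∆ cross b b' := by
      unfold flipSet
      rw [if_pos h]
    rw [e1] at h' ⊢
    unfold flipSet
    rw [if_pos h', symmDiff_symmDiff_cancel_right]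
  · have e1 : flipSet b b' E = E := by
      unfold flipSet
      rw [if_neg h]
    rw [e1, e1]

theorem isAlt_flipSet_iff {b b' : Finset (Fin n)} (hb : b.card = 2) (hb' : b'.card = 2)
    (E : Finset (Sym2 (Fin n))) : IsAlt b b' (flipSet b b' E) ↔ IsAlt b b' E := by
  constructor
  · intro h
    have := isAlt_flipSet hb hb' h
    rwa [flipSet_flipSet hb hb'] at this
  · exact isAlt_flipSet hb hb'

/-- The explicit form of the flip, first matching present. -/
theorem flipSet_pair_left {u w x y : Fin n} (huw : u ≠ w) (hxy : x ≠ y)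
    {E : Finset (Sym2 (Fin n))}
    (h : s(u, x) ∈ E ∧ s(w, y) ∈ E ∧ s(u, y) ∉ E ∧ s(w, x) ∉ E) :
    flipSet {u, w} {x, y} E = switchSet E u x y w := by
  obtain ⟨h1, h2, h3, h4⟩ := h
  have e1 : s(y, w) = s(w, y) := Sym2.eq_swap
  have e2 : s(x, w) = s(w, x) := Sym2.eq_swap
  have hv : switchSet E u x y w = (E \ {s(u, x), s(y, w)}) ∪ {s(u, y), s(x, w)} := by
    apply switchSet_valid h1 _ h3 _
    · rw [e1]; exact h2
    · rw [e2]; exact h4
  unfold flipSet
  rw [if_pos ((isAlt_pair huw hxy E).mpr (Or.inl ⟨h1, h2, h3, h4⟩)), hv, cross_pair, e1, e2]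
  ext e
  simp only [mem_symmDiff, mem_union, mem_sdiff, mem_insert, mem_singleton]
  have hz1 : e = s(u, x) → e ∈ E := fun hh => hh ▸ h1
  have hz2 : e = s(w, y) → e ∈ E := fun hh => hh ▸ h2
  have hz3 : e = s(u, y) → e ∉ E := fun hh => hh ▸ h3
  have hz4 : e = s(w, x) → e ∉ E := fun hh => hh ▸ h4
  tauto

/-- The explicit form of the flip, second matching present. -/
theorem flipSet_pair_right {u w x y : Fin n} (huw : u ≠ w) (hxy : x ≠ y)
    {E : Finset (Sym2 (Fin n))}
    (h : s(u, y) ∈ E ∧ s(w, x) ∈ E ∧ s(u, x) ∉ E ∧ s(w, y) ∉ E) :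
    flipSet {u, w} {x, y} E = switchSet E u y x w := by
  obtain ⟨h1, h2, h3, h4⟩ := h
  have e1 : s(x, w) = s(w, x) := Sym2.eq_swap
  have e2 : s(y, w) = s(w, y) := Sym2.eq_swap
  have hv : switchSet E u y x w = (E \ {s(u, y), s(x, w)}) ∪ {s(u, x), s(y, w)} := by
    apply switchSet_valid h1 _ h3 _
    · rw [e1]; exact h2
    · rw [e2]; exact h4
  unfold flipSet
  rw [if_pos ((isAlt_pair huw hxy E).mpr (Or.inr ⟨h1, h2, h3, h4⟩)), hv, cross_pair, e1, e2]
  ext e
  simp only [mem_symmDiff, mem_union, mem_sdiff, mem_insert, mem_singleton]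
  have hz1 : e = s(u, y) → e ∈ E := fun hh => hh ▸ h1
  have hz2 : e = s(w, x) → e ∈ E := fun hh => hh ▸ h2
  have hz3 : e = s(u, x) → e ∉ E := fun hh => hh ▸ h3
  have hz4 : e = s(w, y) → e ∉ E := fun hh => hh ▸ h4
  tauto

theorem flipSet_of_not {b b' : Finset (Fin n)} {E : Finset (Sym2 (Fin n))}
    (h : ¬ IsAlt b b' E) : flipSet b b' E = E := by
  unfold flipSet
  rw [if_neg h]

/-- Distinctness of the four vertices of two disjoint pairs. -/
theorem pair_distinct {u w x y : Fin n} (hd : Disjoint ({u, w} : Finset (Fin n)) {x, y}) :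
    u ≠ x ∧ u ≠ y ∧ w ≠ x ∧ w ≠ y := by
  rw [disjoint_left] at hd
  refine ⟨?_, ?_, ?_, ?_⟩
  · rintro rfl
    exact hd (mem_insert_self _ _) (mem_insert_self _ _)
  · rintro rfl
    exact hd (mem_insert_self _ _) (mem_insert_of_mem (mem_singleton_self _))
  · rintro rfl
    exact hd (mem_insert_of_mem (mem_singleton_self _)) (mem_insert_self _ _)
  · rintro rfl
    exact hd (mem_insert_of_mem (mem_singleton_self _)) (mem_insert_of_mem (mem_singleton_self _))

/-- The flip of a realization is a realization. -/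
theorem isRealization_flipSet {b b' : Finset (Fin n)} (hb : b.card = 2) (hb' : b'.card = 2)
    (hd : Disjoint b b') {E : Finset (Sym2 (Fin n))} (hE : IsRealization d E) :
    IsRealization d (flipSet b b' E) := by
  obtain ⟨u, w, huw, rfl⟩ := card_eq_two.mp hb
  obtain ⟨x, y, hxy, rfl⟩ := card_eq_two.mp hb'
  obtain ⟨hux, huy, hwx, hwy⟩ := pair_distinct hd
  by_cases h : IsAlt {u, w} {x, y} E
  · rcases (isAlt_pair huw hxy E).mp h with h' | h'
    · rw [flipSet_pair_left huw hxy h']
      exact switchSet_isRealization hE hux huy huw hxy hwx.symm hwy.symm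
    · rw [flipSet_pair_right huw hxy h']
      exact switchSet_isRealization hE huy hux huw hxy.symm hwy.symm hwx.symm
  · rw [flipSet_of_not h]
    exact hE

/-- The flip as a map of the state space (the identity unless `b`, `b'` are disjoint pairs). -/
noncomputable def flip (b b' : Finset (Fin n)) (G : Omega d) : Omega d :=
  if h : b.card = 2 ∧ b'.card = 2 ∧ Disjoint b b' then
    ⟨flipSet b b' G.1, isRealization_flipSet h.1 h.2.1 h.2.2 G.2⟩
  else G

theorem flip_val {b b' : Finset (Fin n)} (hb : b.card = 2) (hb' : b'.card = 2)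
    (hd : Disjoint b b') (G : Omega d) : (flip b b' G).1 = flipSet b b' G.1 := by
  unfold flip
  rw [dif_pos ⟨hb, hb', hd⟩]

theorem flip_flip (b b' : Finset (Fin n)) (G : Omega d) : flip b b' (flip b b' G) = G := by
  by_cases h : b.card = 2 ∧ b'.card = 2 ∧ Disjoint b b'
  · apply Subtype.ext
    rw [flip_val h.1 h.2.1 h.2.2, flip_val h.1 h.2.1 h.2.2, flipSet_flipSet h.1 h.2.1]
  · unfold flip
    rw [dif_neg h, dif_neg h]

theorem flip_comm (b b' : Finset (Fin n)) (G : Omega d) : flip b b' G = flip b' b G := by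
  by_cases h : b.card = 2 ∧ b'.card = 2 ∧ Disjoint b b'
  · apply Subtype.ext
    rw [flip_val h.1 h.2.1 h.2.2, flip_val h.2.1 h.1 h.2.2.symm, flipSet_comm]
  · have h' : ¬ (b'.card = 2 ∧ b.card = 2 ∧ Disjoint b' b) := fun hh =>
      h ⟨hh.2.1, hh.1, hh.2.2.symm⟩
    unfold flip
    rw [dif_neg h, dif_neg h']

theorem gagree_flip_left (b b' : Finset (Fin n)) (G : Omega d) :
    GAgree b G.1 (flip b b' G).1 := by
  by_cases h : b.card = 2 ∧ b'.card = 2 ∧ Disjoint b b'
  · rw [flip_val h.1 h.2.1 h.2.2]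
    exact gagree_flipSet_left b b' G.1
  · unfold flip
    rw [dif_neg h]
    exact GAgree.refl b G.1

theorem gagree_flip_right (b b' : Finset (Fin n)) (G : Omega d) :
    GAgree b' G.1 (flip b b' G).1 := by
  rw [flip_comm]
  exact gagree_flip_left b' b G

theorem isAlt_flip_iff {b b' : Finset (Fin n)} (hb : b.card = 2) (hb' : b'.card = 2)
    (hd : Disjoint b b') (G : Omega d) : IsAlt b b' (flip b b' G).1 ↔ IsAlt b b' G.1 := by
  rw [flip_val hb hb' hd]
  exact isAlt_flipSet_iff hb hb' G.1

theorem flip_of_not {b b' : Finset (Fin n)} {G : Omega d} (h : ¬ IsAlt b b' G.1) :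
    flip b b' G = G := by
  unfold flip
  split_ifs with hh
  · apply Subtype.ext
    exact flipSet_of_not h
  · rfl

/-- On alternating graphs the flip is a switch: the flipped graph is switch-adjacent. -/
theorem switchAdj_flip {b b' : Finset (Fin n)} (hb : b.card = 2) (hb' : b'.card = 2)
    (hd : Disjoint b b') {G : Omega d} (h : IsAlt b b' G.1) :
    H23.SwitchAdj G (flip b b' G) := by
  obtain ⟨u, w, huw, rfl⟩ := card_eq_two.mp hb
  obtain ⟨x, y, hxy, rfl⟩ := card_eq_two.mp hb'
  obtain ⟨hux, huy, hwx, hwy⟩ := pair_distinct hd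
  rcases (isAlt_pair huw hxy G.1).mp h with h' | h'
  · have hval : (flip {u, w} {x, y} G).1 = switchSet G.1 u x y w := by
      rw [flip_val hb hb' hd, flipSet_pair_left huw hxy h']
    refine ⟨?_, ⟨⟨(u, x, y, w), hux, huy, huw, hxy, hwx.symm, hwy.symm⟩, ?_⟩⟩
    · intro hG
      have h3 : s(u, y) ∈ (flip {u, w} {x, y} G).1 := by
        rw [hval, switchSet_valid h'.1 (by rw [Sym2.eq_swap]; exact h'.2.1) h'.2.2.1
          (by rw [Sym2.eq_swap]; exact h'.2.2.2)]
        simp
      rw [← hG] at h3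
      exact h'.2.2.1 h3
    · apply Subtype.ext
      exact hval.symm
  · have hval : (flip {u, w} {x, y} G).1 = switchSet G.1 u y x w := by
      rw [flip_val hb hb' hd, flipSet_pair_right huw hxy h']
    refine ⟨?_, ⟨⟨(u, y, x, w), huy, hux, huw, hxy.symm, hwy.symm, hwx.symm⟩, ?_⟩⟩
    · intro hG
      have h3 : s(u, x) ∈ (flip {u, w} {x, y} G).1 := by
        rw [hval, switchSet_valid h'.1 (by rw [Sym2.eq_swap]; exact h'.2.1) h'.2.2.1
          (by rw [Sym2.eq_swap]; exact h'.2.2.2)]
        simp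
      rw [← hG] at h3
      exact h'.2.2.1 h3
    · apply Subtype.ext
      exact hval.symm

theorem flip_ne_self {b b' : Finset (Fin n)} (hb : b.card = 2) (hb' : b'.card = 2)
    (hd : Disjoint b b') {G : Omega d} (h : IsAlt b b' G.1) : flip b b' G ≠ G :=
  fun hh => (switchAdj_flip hb hb' hd h).1 hh.symm

/-- The energy of `f` along the flip of `b`, `b'` (each switch edge with these diagonals is
counted twice). -/
noncomputable def fenergy (b b' : Finset (Fin n)) (f : Omega d → ℝ) : ℝ :=
  ∑ G : Omega d, (f G - f (flip b b' G)) ^ 2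

theorem fenergy_comm (b b' : Finset (Fin n)) (f : Omega d → ℝ) :
    fenergy b b' f = fenergy b' b f := by
  unfold fenergy
  refine sum_congr rfl fun G _ => ?_
  rw [flip_comm]

theorem flip_ne_self_iff {b b' : Finset (Fin n)} (hb : b.card = 2) (hb' : b'.card = 2)
    (hd : Disjoint b b') (G : Omega d) : flip b b' G ≠ G ↔ IsAlt b b' G.1 := by
  constructor
  · intro h
    by_contra hh
    exact h (flip_of_not hh)
  · exact flip_ne_self hb hb' hd

/-- The alternating part of the class of `G` for the pair `b`, with respect to `c`. -/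
noncomputable def altCls (b c : Finset (Fin n)) (G : Omega d) : Finset (Omega d) :=
  (gcls b G).filter (fun G' : Omega d => IsAlt b c G'.1)

/-- The sum over alternating graphs of the squared mean of `g` over the alternating part of
the class for `b` (equivalently: the sum over the classes `O` of `b` of the squared sum of
`g` over the alternating part of `O`, divided by its size). -/
noncomputable def kap (b c : Finset (Fin n)) (g : Omega d → ℝ) : ℝ :=
  ∑ G ∈ univ.filter (fun G : Omega d => IsAlt b c G.1),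
    ((∑ G' ∈ altCls b c G, g G') / ((altCls b c G).card : ℝ)) ^ 2

theorem mem_symmDiff_of_mem_right {e : Sym2 (Fin n)} {E X : Finset (Sym2 (Fin n))}
    (he : e ∈ X) : e ∈ E ∆ X ↔ e ∉ E := by
  rw [mem_symmDiff]
  tauto

theorem mem_symmDiff_of_not_mem_right {e : Sym2 (Fin n)} {E X : Finset (Sym2 (Fin n))}
    (he : e ∉ X) : e ∈ E ∆ X ↔ e ∈ E := by
  rw [mem_symmDiff]
  tauto

theorem card_filter_pair {α : Type} [DecidableEq α] {x y : α} (hxy : x ≠ y) (P : α → Prop)
    [DecidablePred P] :
    (({x, y} : Finset α).filter P).card = (if P x then 1 else 0) + (if P y then 1 else 0) := by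
  by_cases hx : P x <;> by_cases hy : P y <;>
    simp [filter_insert, filter_singleton, hx, hy, hxy]

/-- Two realizations that agree outside the slots between `b` and `b'` have the same number
of occupied slots at every vertex of `b`. -/
theorem card_filter_eq_of_agree {b b' : Finset (Fin n)} (hd : Disjoint b b')
    {E E' : Finset (Sym2 (Fin n))} (hE : IsRealization d E) (hE' : IsRealization d E')
    (h : ∀ e, e ∉ cross b b' → (e ∈ E ↔ e ∈ E')) {v : Fin n} (hv : v ∈ b) :
    (b'.filter (fun z => s(v, z) ∈ E)).card = (b'.filter (fun z => s(v, z) ∈ E')).card := by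
  have hvb' : v ∉ b' := fun hh => (disjoint_left.mp hd) hv hh
  have h1 : (nbrs E v).card = (nbrs E' v).card := by rw [hE.2 v, hE'.2 v]
  have h2 : ∀ F : Finset (Sym2 (Fin n)),
      ((nbrs F v).filter (fun z => z ∈ b')).card + ((nbrs F v).filter (fun z => ¬ z ∈ b')).card
        = (nbrs F v).card := fun F => card_filter_add_card_filter_not _
  have h3 : (nbrs E v).filter (fun z => ¬ z ∈ b') = (nbrs E' v).filter (fun z => ¬ z ∈ b') := by
    ext z
    simp only [nbrs, mem_filter, mem_univ, true_and]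
    constructor
    · rintro ⟨hz, hzb⟩
      exact ⟨(h _ (not_mem_cross_right hvb' hzb)).mp hz, hzb⟩
    · rintro ⟨hz, hzb⟩
      exact ⟨(h _ (not_mem_cross_right hvb' hzb)).mpr hz, hzb⟩
  have h4 : ∀ F : Finset (Sym2 (Fin n)),
      (nbrs F v).filter (fun z => z ∈ b') = b'.filter (fun z => s(v, z) ∈ F) := by
    intro F
    ext z
    simp only [nbrs, mem_filter, mem_univ, true_and]
    tauto
  have h5 := h2 E
  have h6 := h2 E'
  rw [h3, h4] at h5
  rw [h4] at h6
  omega

theorem two_by_two (a b c e a' b' c' e' : Prop) [Decidable a] [Decidable b] [Decidable c]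
    [Decidable e] [Decidable a'] [Decidable b'] [Decidable c'] [Decidable e']
    (h1 : (if a then 1 else 0) + (if b then 1 else 0)
      = (if a' then 1 else 0) + (if b' then (1 : ℕ) else 0))
    (h2 : (if c then 1 else 0) + (if e then 1 else 0)
      = (if c' then 1 else 0) + (if e' then (1 : ℕ) else 0))
    (h3 : (if a then 1 else 0) + (if c then 1 else 0)
      = (if a' then 1 else 0) + (if c' then (1 : ℕ) else 0))
    (_h4 : (if b then 1 else 0) + (if e then 1 else 0)
      = (if b' then 1 else 0) + (if e' then (1 : ℕ) else 0)) :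
    ((a ↔ a') ∧ (b ↔ b') ∧ (c ↔ c') ∧ (e ↔ e')) ∨
      (((a ∧ e ∧ ¬ b ∧ ¬ c) ∨ (b ∧ c ∧ ¬ a ∧ ¬ e)) ∧
        (a' ↔ ¬ a) ∧ (b' ↔ ¬ b) ∧ (c' ↔ ¬ c) ∧ (e' ↔ ¬ e)) := by
  by_cases ha : a <;> by_cases hb : b <;> by_cases hc : c <;> by_cases he : e <;>
    by_cases ha' : a' <;> by_cases hb' : b' <;> by_cases hc' : c' <;> by_cases he' : e' <;>
    simp_all

/-- Two realizations that agree outside the four slots between the disjoint pairs `b`, `b'`
are equal or flips of each other. -/
theorem eq_or_eq_flipSet {b b' : Finset (Fin n)} (hb : b.card = 2) (hb' : b'.card = 2)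
    (hd : Disjoint b b') {E E' : Finset (Sym2 (Fin n))} (hE : IsRealization d E)
    (hE' : IsRealization d E') (h : ∀ e, e ∉ cross b b' → (e ∈ E ↔ e ∈ E')) :
    E' = E ∨ E' = flipSet b b' E := by
  have hr1 := fun v hv => card_filter_eq_of_agree hd hE hE' h (v := v) hv
  have h' : ∀ e, e ∉ cross b' b → (e ∈ E ↔ e ∈ E') := by
    intro e he
    rw [cross_comm] at he
    exact h e he
  have hr2 := fun z hz => card_filter_eq_of_agree hd.symm hE hE' h' (v := z) hz
  obtain ⟨u, w, huw, rfl⟩ := card_eq_two.mp hb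
  obtain ⟨x, y, hxy, rfl⟩ := card_eq_two.mp hb'
  have k1 := hr1 u (by simp)
  have k2 := hr1 w (by simp)
  have k3 := hr2 x (by simp)
  have k4 := hr2 y (by simp)
  rw [card_filter_pair hxy (fun z => s(u, z) ∈ E), card_filter_pair hxy (fun z => s(u, z) ∈ E')]
    at k1
  rw [card_filter_pair hxy (fun z => s(w, z) ∈ E), card_filter_pair hxy (fun z => s(w, z) ∈ E')]
    at k2
  rw [card_filter_pair huw (fun z => s(x, z) ∈ E), card_filter_pair huw (fun z => s(x, z) ∈ E')]
    at k3
  rw [card_filter_pair huw (fun z => s(y, z) ∈ E), card_filter_pair huw (fun z => s(y, z) ∈ E')]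
    at k4
  have sx : s(x, u) = s(u, x) := Sym2.eq_swap
  have sy : s(y, u) = s(u, y) := Sym2.eq_swap
  have tx : s(x, w) = s(w, x) := Sym2.eq_swap
  have ty : s(y, w) = s(w, y) := Sym2.eq_swap
  rw [sx, tx] at k3
  rw [sy, ty] at k4
  have hcr := cross_pair u w x y
  rcases two_by_two _ _ _ _ _ _ _ _ k1 k2 k3 k4 with ⟨i1, i2, i3, i4⟩ | ⟨halt, i1, i2, i3, i4⟩
  · left
    ext e
    by_cases he : e ∈ cross {u, w} {x, y}
    · rw [hcr] at he
      simp only [mem_insert, mem_singleton] at he
      rcases he with rfl | rfl | rfl | rfl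
      · exact i1.symm
      · exact i2.symm
      · exact i3.symm
      · exact i4.symm
    · exact (h e he).symm
  · right
    have hA : IsAlt {u, w} {x, y} E := (isAlt_pair huw hxy E).mpr halt
    unfold flipSet
    rw [if_pos hA]
    ext e
    by_cases he : e ∈ cross {u, w} {x, y}
    · rw [mem_symmDiff_of_mem_right he]
      rw [hcr] at he
      simp only [mem_insert, mem_singleton] at he
      rcases he with rfl | rfl | rfl | rfl
      · exact i1
      · exact i2
      · exact i3
      · exact i4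
    · rw [mem_symmDiff_of_not_mem_right he]
      exact (h e he).symm

/-- Two graphs of the state space that agree outside the four slots between `b` and `b'`
are equal or flips of each other. -/
theorem eq_or_eq_flip {b b' : Finset (Fin n)} (hb : b.card = 2) (hb' : b'.card = 2)
    (hd : Disjoint b b') (G G' : Omega d)
    (h : ∀ e, e ∉ cross b b' → (e ∈ G.1 ↔ e ∈ G'.1)) : G' = G ∨ G' = flip b b' G := by
  rcases eq_or_eq_flipSet hb hb' hd G.2 G'.2 h with h1 | h1
  · left
    exact Subtype.ext h1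
  · right
    apply Subtype.ext
    rw [flip_val hb hb' hd]
    exact h1

/-- The flip changes only slots between `b` and `b'`. -/
theorem flip_agree_off_cross (b b' : Finset (Fin n)) (G : Omega d) (e : Sym2 (Fin n))
    (he : e ∉ cross b b') : e ∈ G.1 ↔ e ∈ (flip b b' G).1 := by
  by_cases h : b.card = 2 ∧ b'.card = 2 ∧ Disjoint b b'
  · rw [flip_val h.1 h.2.1 h.2.2]
    unfold flipSet
    split_ifs with hA
    · rw [mem_symmDiff]
      tauto
    · exact Iff.rfl
  · unfold flip
    rw [dif_neg h]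

end Vale.Agent.Lib.P335.Gr
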