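import Vale.Agent.Lib.P335.Gr.Avg

/-!
# The common fixed functions of the pair averages are the constants (problem P335)

A switch on `(a, b, c, e)` changes only pairs meeting its diagonal `{a, e}`, so a function
fixed by every pair average `gavg {a, e}` is invariant under every step of the chain; by the
connectivity of the switch graph it is constant.
-/

namespace Vale.Agent.Lib.P335.Gr

open Finset
open Classical

variable {n : ℕ} {d : Fin n → ℕ}

namespace Ker

/-- A switch on `(a, b, c, e)` changes only pairs that meet `{a, e}`. -/
theorem gagree_switchSet (E : Finset (Sym2 (Fin n))) (a b c e : Fin n) :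
    GAgree {a, e} E (switchSet E a b c e) := by
  intro x y hx hy
  have hxa : x ≠ a := fun h => hx (by simp [h])
  have hxe : x ≠ e := fun h => hx (by simp [h])
  have hya : y ≠ a := fun h => hy (by simp [h])
  have hye : y ≠ e := fun h => hy (by simp [h])
  unfold switchSet
  split_ifs with h
  · have n1 : s(x, y) ≠ s(a, b) := by
      intro h
      rw [Sym2.eq_iff] at h
      rcases h with ⟨h1, _⟩ | ⟨_, h2⟩
      · exact hxa h1
      · exact hya h2
    have n2 : s(x, y) ≠ s(c, e) := by
      intro h
      rw [Sym2.eq_iff] at h
      rcases h with ⟨_, h2⟩ | ⟨h1, _⟩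
      · exact hye h2
      · exact hxe h1
    have n3 : s(x, y) ≠ s(a, c) := by
      intro h
      rw [Sym2.eq_iff] at h
      rcases h with ⟨h1, _⟩ | ⟨_, h2⟩
      · exact hxa h1
      · exact hya h2
    have n4 : s(x, y) ≠ s(b, e) := by
      intro h
      rw [Sym2.eq_iff] at h
      rcases h with ⟨_, h2⟩ | ⟨h1, _⟩
      · exact hye h2
      · exact hxe h1
    simp only [mem_union, mem_sdiff, mem_insert, mem_singleton]
    tauto
  · exact Iff.rfl

/-- A step of the chain stays in the class of the diagonal of the proposal. -/
theorem gagree_step (G : Omega d) (p : Proposal n) :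
    GAgree {p.1.1, p.1.2.2.2} G.1 (step G p).1 :=
  gagree_switchSet G.1 _ _ _ _

/-- A function that is constant along a relation is constant along its chains. -/
theorem eq_of_reach {Ω : Type} {r : Ω → Ω → Prop} (f : Ω → ℝ)
    (hr : ∀ u v, r u v → f u = f v) {k : ℕ} {x y : Ω} (h : Reach r k x y) : f x = f y := by
  induction h with
  | refl x => rfl
  | step h1 _ ih => exact (hr _ _ h1).trans ih

end Ker

/-- **Kernel.** A function fixed by all the pair averages is constant: the classes of the
vertex pairs generate the switch graph, which is connected. -/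
theorem graph_ker (hn : 4 ≤ n) (f : Omega d → ℝ)
    (h : ∀ b : Finset (Fin n), b.card = 2 → gavg b f = f) : ∀ G G' : Omega d, f G = f G' := by
  have hstep : ∀ (G : Omega d) (p : Proposal n), f G = f (step G p) := by
    intro G p
    have hb : ({p.1.1, p.1.2.2.2} : Finset (Fin n)).card = 2 := Finset.card_pair p.2.2.2.1
    exact (gavg_eq_self_iff _ f).mp (h _ hb) G (step G p) (Ker.gagree_step G p)
  have hn0 : (0 : ℝ) < (n : ℝ) := by
    have : 0 < n := by omega
    exact_mod_cast this
  have hq : ∀ G G' : Omega d, 1 / (n : ℝ) ^ 4 ≤ Qker d G G' → f G = f G' := by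
    intro G G' hQ
    have hpos : 0 < Qker d G G' := lt_of_lt_of_le (by positivity) hQ
    have hc : (Finset.univ.filter (fun p : Proposal n => step G p = G')).Nonempty := by
      by_contra hne
      rw [Finset.not_nonempty_iff_eq_empty] at hne
      unfold Qker at hpos
      rw [hne] at hpos
      simp at hpos
    obtain ⟨p, hp⟩ := hc
    rw [mem_filter] at hp
    rw [← hp.2]
    exact hstep G p
  intro G G'
  obtain ⟨k, -, hr⟩ := switch_connected hn d (n ^ 2) G G' (sdist_le _ _)
  exact Ker.eq_of_reach f hq hr

end Vale.Agent.Lib.P335.Gr
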