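import Vale.Agent.Lib.P335.Gr.Triple

/-!
# Lifting table switches to graph switches

A switch of the table of a graph with respect to a vertex triple is the table of a graph
obtained by one switch whose diagonal is the pair of rows.
-/

namespace Vale.Agent.Lib.P335.Gr

namespace Triple

open Finset
open Classical
open Vale.Agent.Lib.P335

variable {n : ℕ}

/-- A switch on two rows and two real columns. -/
theorem tbl_switch_real {T : Finset (Fin n)} {st : Fin n} (hst : st ∈ T)
    (E : Finset (Sym2 (Fin n))) {i i' j j' : Fin n} (hi : i ∈ T) (hi' : i' ∈ T) (hii : i ≠ i')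
    (hj : j ∉ T) (hj' : j' ∉ T) :
    tbl T st (swE E i j j' i') = Bip.swRow (tbl T st E) i i' j j' := by
  have hii' : i' ≠ i := Ne.symm hii
  have hv : ∀ x, virt T (swE E i j j' i') x ↔ virt T E x := by
    intro x
    apply virt_congr
    intro y1 h1 y2 h2
    have a1 : y1 ≠ j := fun h => hj (h ▸ h1)
    have a2 : y1 ≠ j' := fun h => hj' (h ▸ h1)
    have a3 : y2 ≠ j := fun h => hj (h ▸ h2)
    have a4 : y2 ≠ j' := fun h => hj' (h ▸ h2)
    rw [mem_swE]
    simp only [ne_eq, Sym2.eq_iff, a1, a2, a3, a4, false_and, and_false, or_false,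
      not_false_eq_true, and_true]
  have kE : ∀ x z, x ∈ T → z ∉ T → (s(x, z) ∈ swE E i j j' i' ↔
      (s(x, z) ∈ E ∧ ¬ (x = i ∧ z = j) ∧ ¬ (x = i' ∧ z = j')) ∨ (x = i ∧ z = j') ∨
        (x = i' ∧ z = j)) := by
    intro x z hx hz
    have c1 : x ≠ j := fun h => hj (h ▸ hx)
    have c2 : x ≠ j' := fun h => hj' (h ▸ hx)
    rw [mem_swE]
    simp only [ne_eq, Sym2.eq_iff, c1, c2, false_and, or_false, false_or]
  apply tbl_eq_swRow_of_rows hii
  · intro z
    unfold cell
    rw [hv]
    by_cases hz : z ∈ T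
    · have b1 : z ≠ j := fun h => hj (h ▸ hz)
      have b2 : z ≠ j' := fun h => hj' (h ▸ hz)
      simp only [hz, not_true_eq_false, false_and, false_or, b1, b2, ne_eq, not_false_eq_true,
        true_and]
    · have b0 : z ≠ st := fun h => hz (h ▸ hst)
      rw [kE i z hi hz]
      simp only [hz, not_false_eq_true, true_and, hii, false_and, or_false, and_true, b0, hi,
        ne_eq]
      tauto
  · intro z
    unfold cell
    rw [hv]
    by_cases hz : z ∈ T
    · have b1 : z ≠ j := fun h => hj (h ▸ hz)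
      have b2 : z ≠ j' := fun h => hj' (h ▸ hz)
      simp only [hz, not_true_eq_false, false_and, false_or, b1, b2, ne_eq, not_false_eq_true,
        true_and]
    · have b0 : z ≠ st := fun h => hz (h ▸ hst)
      rw [kE i' z hi' hz]
      simp only [hz, not_false_eq_true, true_and, hii', false_and, or_false, false_or,
        b0, hi', ne_eq]
      tauto
  · intro x z hxi hxi'
    unfold cell
    rw [hv]
    by_cases hx : x ∈ T
    · by_cases hz : z ∈ T
      · simp only [hz, not_true_eq_false, false_and]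
      · rw [kE x z hx hz]
        simp only [hxi, hxi', false_and, not_false_eq_true, and_true, or_false]
    · simp only [hx, false_and]

/-- A switch on two rows, one real column and the virtual column. -/
theorem tbl_switch_virt {T : Finset (Fin n)} {st : Fin n} (hst : st ∈ T)
    (E : Finset (Sym2 (Fin n))) {i i' t j : Fin n} (hT : T = {i, i', t}) (hii : i ≠ i')
    (hit : i ≠ t) (hi't : i' ≠ t) (hj : j ∉ T) :
    tbl T st (swE E i j t i') = Bip.swRow (tbl T st E) i i' j st := by
  have hi : i ∈ T := by simp [hT]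
  have hi' : i' ∈ T := by simp [hT]
  have ht : t ∈ T := by simp [hT]
  have hij : i ≠ j := fun h => hj (h ▸ hi)
  have hi'j : i' ≠ j := fun h => hj (h ▸ hi')
  have htj : t ≠ j := fun h => hj (h ▸ ht)
  have hii' : i' ≠ i := Ne.symm hii
  have hti : t ≠ i := Ne.symm hit
  have hti' : t ≠ i' := Ne.symm hi't
  have hTi' : T = {i', i, t} := by
    rw [hT]; ext z; simp only [mem_insert, mem_singleton]; tauto
  have hTt : T = {t, i, i'} := by
    rw [hT]; ext z; simp only [mem_insert, mem_singleton]; tauto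
  have v1 : virt T (swE E i j t i') i := by
    rw [virt_iff hT hii hit hi't, mem_swE]
    simp only [ne_eq, Sym2.eq_iff, hii', hi't, hi'j, hti, htj, false_and, and_false, or_false,
      false_or, not_true_eq_false, and_self, not_false_eq_true]
  have v2 : ¬ virt T (swE E i j t i') i' := by
    rw [virt_iff hTi' hii' hi't hit, not_not, mem_swE]
    exact Or.inr (Or.inl rfl)
  have v3 : virt T (swE E i j t i') t ↔ virt T E t := by
    rw [virt_iff hTt hti hti' hii, virt_iff hTt hti hti' hii, mem_swE]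
    simp only [ne_eq, Sym2.eq_iff, hii, hii', hi'j, hit, hij, and_false, or_false,
      not_false_eq_true, and_true, hi't]
  have kE : ∀ x z, x ∈ T → z ∉ T → (s(x, z) ∈ swE E i j t i' ↔
      (s(x, z) ∈ E ∧ ¬ (x = i ∧ z = j)) ∨ (x = i' ∧ z = j)) := by
    intro x z hx hz
    have c1 : x ≠ j := fun h => hj (h ▸ hx)
    have b1 : z ≠ i := fun h => hz (h ▸ hi)
    have b2 : z ≠ i' := fun h => hz (h ▸ hi')
    have b3 : z ≠ t := fun h => hz (h ▸ ht)
    rw [mem_swE]
    simp only [ne_eq, Sym2.eq_iff, c1, b1, b2, b3, and_false, or_false, false_or,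
      not_false_eq_true, and_true]
  apply tbl_eq_swRow_of_rows hii
  · intro z
    unfold cell
    by_cases hz : z ∈ T
    · have b1 : z ≠ j := fun h => hj (h ▸ hz)
      simp only [hz, not_true_eq_false, false_and, false_or, v1, and_true, hi, true_and, b1,
        ne_eq, not_false_eq_true]
      tauto
    · have b0 : z ≠ st := fun h => hz (h ▸ hst)
      rw [kE i z hi hz]
      simp only [hz, not_false_eq_true, true_and, hii, false_and, or_false, b0, hi, ne_eq]
      tauto
  · intro z
    unfold cell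
    by_cases hz : z ∈ T
    · have b1 : z ≠ j := fun h => hj (h ▸ hz)
      simp only [hz, not_true_eq_false, false_and, false_or, v2, and_false, b1, ne_eq]
      tauto
    · have b0 : z ≠ st := fun h => hz (h ▸ hst)
      rw [kE i' z hi' hz]
      simp only [hz, not_false_eq_true, true_and, hii', false_and, b0, hi', ne_eq]
      tauto
  · intro x z hxi hxi'
    unfold cell
    by_cases hx : x ∈ T
    · have hxt : x = t := by
        rw [hT] at hx
        simp only [mem_insert, mem_singleton] at hx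
        tauto
      subst hxt
      rw [v3]
      by_cases hz : z ∈ T
      · simp only [hz, not_true_eq_false, false_and]
      · rw [kE x z hx hz]
        simp only [hxi, hxi', false_and, not_false_eq_true, and_true, or_false]
    · simp only [hx, false_and]

theorem swRow_ne {x : Fin n → Finset (Fin n)} {i i' j j' : Fin n} (h : Bip.SwOK x i i' j j') :
    Bip.swRow x i i' j j' ≠ x := by
  obtain ⟨hii, hjj, h1, -, -, -⟩ := h
  intro heq
  have e := congrFun heq i
  rw [Bip.swRow_left _ hii] at e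
  have h1' : j ∈ insert j' ((x i).erase j) := by rw [e]; exact h1
  simp only [mem_insert, mem_erase] at h1'
  rcases h1' with h1' | ⟨h1', -⟩
  · exact hjj h1'
  · exact h1' rfl

theorem lift_virt {d : Fin n → ℕ} {T : Finset (Fin n)} (hT3 : T.card = 3) {st : Fin n}
    (hst : st ∈ T) (G : Omega d) {i i' j : Fin n} (hi : i ∈ T) (hi' : i' ∈ T) (hii : i ≠ i')
    (hj : j ∉ T) (h1 : s(i, j) ∈ G.1) (h2 : ¬ virt T G.1 i) (h3 : s(i', j) ∉ G.1)
    (h4 : virt T G.1 i') :
    ∃ G' : Omega d, (∃ p : Proposal n, step G p = G') ∧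
      tbl T st G'.1 = Bip.swRow (tbl T st G.1) i i' j st ∧ GAgree {i, i'} G.1 G'.1 := by
  obtain ⟨t, hit, hi't, hT⟩ := enum_of_mem2 hT3 hi hi' hii
  have hTi' : T = {i', i, t} := by
    rw [hT]; ext z; simp only [mem_insert, mem_singleton]; tauto
  have ht : t ∈ T := by simp [hT]
  rw [virt_iff hT hii hit hi't, not_not] at h2
  rw [virt_iff hTi' (Ne.symm hii) hi't hit] at h4
  have hij : i ≠ j := fun h => hj (h ▸ hi)
  have hjt : j ≠ t := fun h => hj (h ▸ ht)
  have hji' : j ≠ i' := fun h => hj (h ▸ hi')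
  obtain ⟨G', hG', hp⟩ := exists_switch G (a := i) (b := j) (c := t) (e := i') hij hit hii hjt
    hji' (Ne.symm hi't) h1 (by rw [Sym2.eq_swap]; exact h2) h4 (by rw [Sym2.eq_swap]; exact h3)
  refine ⟨G', hp, ?_, ?_⟩
  · rw [hG']
    exact tbl_switch_virt hst G.1 hT hii hit hi't hj
  · rw [hG']
    exact agree_swE G.1 i j t i'

/-- Every switch of the table of a graph is the table of a switched graph; the switch of the
graph has the two rows as a diagonal. -/
theorem lift_switch {d : Fin n → ℕ} {T : Finset (Fin n)} (hT3 : T.card = 3) {st : Fin n}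
    (hst : st ∈ T) (G : Omega d) {i i' j j' : Fin n}
    (h : Bip.SwOK (tbl T st G.1) i i' j j') :
    ∃ G' : Omega d, H23.SwitchAdj G G' ∧
      tbl T st G'.1 = Bip.swRow (tbl T st G.1) i i' j j' ∧ GAgree {i, i'} G.1 G'.1 := by
  have hne := swRow_ne h
  obtain ⟨hii, hjj, h1, h2, h3, h4⟩ := h
  rw [mem_tbl] at h1 h2 h3 h4
  have hi : i ∈ T := h1.1
  have hi' : i' ∈ T := h4.1
  have key : ∃ G' : Omega d, (∃ p : Proposal n, step G p = G') ∧
      tbl T st G'.1 = Bip.swRow (tbl T st G.1) i i' j j' ∧ GAgree {i, i'} G.1 G'.1 := by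
    rcases h1.2 with ⟨hjT, hij⟩ | ⟨hjs, hvi⟩
    · rcases h4.2 with ⟨hj'T, hi'j'⟩ | ⟨hj's, hvi'⟩
      · have n1 : s(i, j') ∉ G.1 := fun hh => h2 ⟨hi, Or.inl ⟨hj'T, hh⟩⟩
        have n2 : s(i', j) ∉ G.1 := fun hh => h3 ⟨hi', Or.inl ⟨hjT, hh⟩⟩
        have d1 : i ≠ j := fun h => hjT (h ▸ hi)
        have d2 : i ≠ j' := fun h => hj'T (h ▸ hi)
        have d3 : j ≠ i' := fun h => hjT (h ▸ hi')
        have d4 : j' ≠ i' := fun h => hj'T (h ▸ hi')
        obtain ⟨G', hG', hp⟩ := exists_switch G (a := i) (b := j) (c := j') (e := i') d1 d2 hii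
          hjj d3 d4 hij (by rw [Sym2.eq_swap]; exact hi'j') n1 (by rw [Sym2.eq_swap]; exact n2)
        refine ⟨G', hp, ?_, ?_⟩
        · rw [hG']
          exact tbl_switch_real hst G.1 hi hi' hii hjT hj'T
        · rw [hG']
          exact agree_swE G.1 i j j' i'
      · have n1 : ¬ virt T G.1 i := fun hh => h2 ⟨hi, Or.inr ⟨hj's, hh⟩⟩
        have n2 : s(i', j) ∉ G.1 := fun hh => h3 ⟨hi', Or.inl ⟨hjT, hh⟩⟩
        rw [hj's]
        exact lift_virt hT3 hst G hi hi' hii hjT hij n1 n2 hvi'
    · rcases h4.2 with ⟨hj'T, hi'j'⟩ | ⟨hj's, hvi'⟩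
      · have n1 : ¬ virt T G.1 i' := fun hh => h3 ⟨hi', Or.inr ⟨hjs, hh⟩⟩
        have n2 : s(i, j') ∉ G.1 := fun hh => h2 ⟨hi, Or.inl ⟨hj'T, hh⟩⟩
        obtain ⟨G', hp, ht, hg⟩ := lift_virt hT3 hst G hi' hi (Ne.symm hii) hj'T hi'j' n1 n2 hvi
        refine ⟨G', hp, ?_, ?_⟩
        · rw [ht, hjs, Bip.swRow_comm _ hii]
        · rw [pair_comm]
          exact hg
      · exact absurd (hjs.trans hj's.symm) hjj
  obtain ⟨G', hp, ht, hg⟩ := key
  refine ⟨G', ⟨?_, hp⟩, ht, hg⟩
  intro heq
  apply hne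
  rw [← ht, ← heq]

end Triple

end Vale.Agent.Lib.P335.Gr
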