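import Vale.Agent.Lib.P335.Gr.Avg
import Vale.Agent.Lib.P335.H24.Frozen
import Vale.Agent.Lib.P335.Bip.Johnson

/-!
# The pair level in the graph model (problem P335, simple graphs): module G1

* `graph_johnson`: for two vertices `u ≠ w`, the switches having `{u, w}` as a diagonal satisfy
  a Poincare inequality with constant `2` on every class of graphs agreeing off `{u, w}`
  (transfer of the table statement `Bip.johnson` through the encoding of `H24/Frozen`).
* `genergy_sum`: every switch has exactly two diagonals, so the pair energies add up to twice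
  the switch energy.
-/

namespace Vale.Agent.Lib.P335.Gr

open Finset
open Classical
open Vale.Agent.Lib.P335

variable {n : ℕ} {d : Fin n → ℕ}

namespace Pair

/-- Graphs with the same frozen parts agree off `U`. -/
theorem gagree_of_sameFrozen {U : Finset (Fin n)} {E E' : Finset (Sym2 (Fin n))}
    (h : H24.SameFrozen U E E') : GAgree U E E' := by
  intro a b ha hb
  exact h a b (by simp [ha, hb])

theorem nbIn_pair_left {E : Finset (Sym2 (Fin n))} (hloop : ∀ e ∈ E, ¬ e.IsDiag) {u w : Fin n}
    (huw : u ≠ w) : (nbIn E {u, w} u).card = if s(u, w) ∈ E then 1 else 0 := by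
  have h1 : s(u, u) ∉ E := fun h => hloop _ h (by simp)
  have h2 : nbIn E {u, w} u = if s(u, w) ∈ E then {w} else ∅ := by
    ext x
    by_cases hE : s(u, w) ∈ E
    · simp only [nbIn, mem_filter, mem_insert, mem_singleton, if_pos hE]
      constructor
      · rintro ⟨rfl | rfl, hx⟩
        · exact absurd hx h1
        · rfl
      · rintro rfl
        exact ⟨Or.inr rfl, hE⟩
    · simp only [nbIn, mem_filter, mem_insert, mem_singleton, if_neg hE, notMem_empty,
        iff_false, not_and]
      rintro (rfl | rfl)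
      · exact h1
      · exact hE
  rw [h2]
  split_ifs <;> simp

theorem nbIn_pair_right {E : Finset (Sym2 (Fin n))} (hloop : ∀ e ∈ E, ¬ e.IsDiag) {u w : Fin n}
    (huw : u ≠ w) : (nbIn E {u, w} w).card = if s(u, w) ∈ E then 1 else 0 := by
  have h := nbIn_pair_left hloop (Ne.symm huw)
  rw [Finset.pair_comm, Sym2.eq_swap] at h
  exact h

/-- Two realizations of `d` that agree off the pair `{u, w}` also agree on the pair `uw`, so
they have the same frozen parts with respect to `{u, w}`. -/
theorem sameFrozen_of_gagree {u w : Fin n} (huw : u ≠ w) {E E' : Finset (Sym2 (Fin n))}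
    (hE : IsRealization d E) (hE' : IsRealization d E') (h : GAgree {u, w} E E') :
    H24.SameFrozen {u, w} E E' := by
  set U : Finset (Fin n) := {u, w} with hU
  -- the inner edge
  have houtE : ∀ z ∈ Uᶜ, nbIn E Uᶜ z = nbIn E' Uᶜ z := by
    intro z hz
    ext x
    simp only [nbIn, mem_filter, mem_compl]
    have hz' : z ∉ U := mem_compl.mp hz
    constructor
    · rintro ⟨hx, hxE⟩
      exact ⟨hx, (h z x hz' hx).1 hxE⟩
    · rintro ⟨hx, hxE⟩
      exact ⟨hx, (h z x hz' hx).2 hxE⟩
  have key : ∀ F : Finset (Sym2 (Fin n)), IsRealization d F →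
      ∑ v ∈ U, d v + ∑ z ∈ Uᶜ, (nbIn F Uᶜ z).card
        = ∑ v ∈ U, (nbIn F U v).card + ∑ z ∈ Uᶜ, d z := by
    intro F hF
    have e1 : ∑ v ∈ U, d v = ∑ v ∈ U, (nbIn F U v).card + ∑ v ∈ U, (nbIn F Uᶜ v).card := by
      rw [← sum_add_distrib]
      exact sum_congr rfl fun v _ => by rw [← hF.2 v, card_nbrs_inout F U v]
    have e2 : ∑ z ∈ Uᶜ, d z = ∑ z ∈ Uᶜ, (nbIn F U z).card + ∑ z ∈ Uᶜ, (nbIn F Uᶜ z).card := by
      rw [← sum_add_distrib]
      exact sum_congr rfl fun v _ => by rw [← hF.2 v, card_nbrs_inout F U v]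
    have e3 := sum_nbIn_comm F U
    omega
  have k1 := key E hE
  have k2 := key E' hE'
  have k3 : ∑ z ∈ Uᶜ, (nbIn E Uᶜ z).card = ∑ z ∈ Uᶜ, (nbIn E' Uᶜ z).card :=
    sum_congr rfl fun z hz => by rw [houtE z hz]
  have k4 : ∑ v ∈ U, (nbIn E U v).card = ∑ v ∈ U, (nbIn E' U v).card := by omega
  rw [hU, sum_pair huw, sum_pair huw, nbIn_pair_left hE.1 huw, nbIn_pair_right hE.1 huw,
    nbIn_pair_left hE'.1 huw, nbIn_pair_right hE'.1 huw] at k4
  have hin : s(u, w) ∈ E ↔ s(u, w) ∈ E' := by
    by_cases h1 : s(u, w) ∈ E <;> by_cases h2 : s(u, w) ∈ E' <;> simp [h1, h2] at k4 ⊢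
  intro a b hab
  by_cases ha : a ∈ U
  · have hb : b ∈ U := hab.1 ha
    rw [hU, mem_insert, mem_singleton] at ha hb
    rcases ha with rfl | rfl <;> rcases hb with rfl | rfl
    · constructor
      · intro h1
        exact absurd h1 (fun h1 => hE.1 _ h1 (by simp))
      · intro h1
        exact absurd h1 (fun h1 => hE'.1 _ h1 (by simp))
    · exact hin
    · rw [Sym2.eq_swap]
      exact hin
    · constructor
      · intro h1
        exact absurd h1 (fun h1 => hE.1 _ h1 (by simp))
      · intro h1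
        exact absurd h1 (fun h1 => hE'.1 _ h1 (by simp))
  · have hb : b ∉ U := fun hb => ha (hab.2 hb)
    exact h a b ha hb

/-- The class of `G0` with respect to a pair is the set of graphs with the same frozen
parts. -/
theorem mem_gcls_pair {u w : Fin n} (huw : u ≠ w) (G0 G : Omega d) :
    G ∈ gcls {u, w} G0 ↔ H24.SameFrozen {u, w} G0.1 G.1 := by
  rw [mem_gcls]
  exact ⟨fun h => sameFrozen_of_gagree huw G0.2 G.2 h, gagree_of_sameFrozen⟩

/-- Summation over classes: if `φ ≤ ψ` after summation over every class, then also after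
summation over the whole space. -/
theorem sum_le_of_classes {α : Type} [Fintype α] (cl : α → Finset α)
    (hself : ∀ a, a ∈ cl a) (heq : ∀ a b, b ∈ cl a → cl b = cl a) (φ ψ : α → ℝ)
    (h : ∀ a, ∑ b ∈ cl a, φ b ≤ ∑ b ∈ cl a, ψ b) : ∑ a, φ a ≤ ∑ a, ψ a := by
  have hpos : ∀ a, (0 : ℝ) < ((cl a).card : ℝ) := fun a => by
    exact_mod_cast Finset.card_pos.2 ⟨a, hself a⟩
  have key : ∀ χ : α → ℝ, ∑ a, χ a = ∑ a, (∑ b ∈ cl a, χ b) / ((cl a).card : ℝ) := by
    intro χ
    have h1 : ∀ a, (∑ b ∈ cl a, χ b) / ((cl a).card : ℝ)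
        = ∑ b, if b ∈ cl a then χ b / ((cl a).card : ℝ) else 0 := by
      intro a
      rw [sum_div, ← sum_filter]
      congr 1
      ext b
      simp
    simp only [h1]
    rw [sum_comm]
    refine sum_congr rfl fun b _ => ?_
    have h2 : ∀ a, (if b ∈ cl a then χ b / ((cl a).card : ℝ) else 0)
        = if a ∈ cl b then χ b / ((cl b).card : ℝ) else 0 := by
      intro a
      by_cases hb : b ∈ cl a
      · have e := heq a b hb
        have ha : a ∈ cl b := by rw [e]; exact hself a
        rw [if_pos hb, if_pos ha, e]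
      · have ha : a ∉ cl b := by
          intro ha
          have e := heq b a ha
          exact hb (by rw [e]; exact hself b)
        rw [if_neg hb, if_neg ha]
    simp only [h2]
    rw [← sum_filter]
    have h3 : (univ.filter fun a => a ∈ cl b) = cl b := by
      ext a
      simp
    rw [h3, sum_const, nsmul_eq_mul]
    field_simp [(hpos b).ne']
  rw [key φ, key ψ]
  refine sum_le_sum fun a _ => ?_
  exact div_le_div_of_nonneg_right (h a) (hpos a).le

/-- The Poincare inequality of the pair `{u, w}` on one class. -/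
theorem class_johnson {u w : Fin n} (huw : u ≠ w) (G0 : Omega d) (f : Omega d → ℝ) :
    4 * (∑ G ∈ gcls {u, w} G0, (f G * f G - f G * gavg {u, w} f G))
      ≤ ∑ G ∈ gcls {u, w} G0, ∑ G' ∈ gcls {u, w} G0,
          if H23.SwitchAdj G G' then (f G - f G') ^ 2 else 0 := by
  set U : Finset (Fin n) := {u, w} with hU
  set e := H24.frozenEquiv U G0 with he
  set F : Bip.Tab (H24.rF d U G0.1) (H24.cF d U G0.1) → ℝ := fun x => f (e.symm x).1 with hFdef
  have hu : u ∈ U := by simp [hU]
  have hw : w ∈ U := by simp [hU]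
  set i : RowT U := ⟨u, hu⟩ with hi
  set i' : RowT U := ⟨w, hw⟩ with hi'
  have hii : i ≠ i' := fun h => huw (congrArg Subtype.val h)
  have hJ := Bip.johnson i i' hii F
  -- sums over the subtype are sums over the class
  have hsub : ∀ g : Omega d → ℝ,
      ∑ k : {G : Omega d // H24.SameFrozen U G0.1 G.1}, g k.1 = ∑ G ∈ gcls U G0, g G := by
    intro g
    exact (Finset.sum_subtype (gcls U G0) (fun G => mem_gcls_pair huw G0 G) g).symm
  have hFsum : ∀ g : Omega d → ℝ,
      ∑ x : Bip.Tab (H24.rF d U G0.1) (H24.cF d U G0.1), g (e.symm x).1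
        = ∑ G ∈ gcls U G0, g G := by
    intro g
    rw [← hsub g]
    exact Equiv.sum_comp e.symm (fun k => g k.1)
  -- the pair class of a table is everything
  have hcls : ∀ x : Bip.Tab (H24.rF d U G0.1) (H24.cF d U G0.1), Bip.cls {i, i'} x = univ := by
    intro x
    unfold Bip.cls
    apply Finset.filter_true_of_mem
    intro y _ k hk
    exfalso
    apply hk
    have hk2 : (k.1 : Fin n) ∈ ({u, w} : Finset (Fin n)) := k.2
    rw [mem_insert, mem_singleton] at hk2
    rw [mem_insert, mem_singleton]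
    rcases hk2 with h | h
    · exact Or.inl (Subtype.ext h)
    · exact Or.inr (Subtype.ext h)
  have hcard : ((univ : Finset (Bip.Tab (H24.rF d U G0.1) (H24.cF d U G0.1))).card : ℝ)
      = ((gcls U G0).card : ℝ) := by
    have h1 := hFsum (fun _ => (1 : ℝ))
    simpa using h1
  have havg : ∀ x : Bip.Tab (H24.rF d U G0.1) (H24.cF d U G0.1),
      Bip.avg {i, i'} F x = (∑ G ∈ gcls U G0, f G) / ((gcls U G0).card : ℝ) := by
    intro x
    rw [Bip.avg_apply, hcls x, hcard]
    congr 1
    exact hFsum f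
  have hgavg : ∀ G ∈ gcls U G0,
      gavg U f G = (∑ G' ∈ gcls U G0, f G') / ((gcls U G0).card : ℝ) := by
    intro G hG
    rw [gavg_apply, gcls_eq_of_mem U G0 G hG]
  have hA : Bip.ip F F = ∑ G ∈ gcls U G0, f G * f G := by
    unfold Bip.ip
    exact hFsum (fun G => f G * f G)
  have hB : Bip.ip F (Bip.avg {i, i'} F) = ∑ G ∈ gcls U G0, f G * gavg U f G := by
    unfold Bip.ip
    have h1 : ∀ x : Bip.Tab (H24.rF d U G0.1) (H24.cF d U G0.1),
        F x * Bip.avg {i, i'} F x
          = (fun G => f G * ((∑ G' ∈ gcls U G0, f G') / ((gcls U G0).card : ℝ))) (e.symm x).1 := by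
      intro x
      rw [havg x]
    rw [Finset.sum_congr rfl fun x _ => h1 x]
    refine (hFsum (fun G => f G * ((∑ G' ∈ gcls U G0, f G') / ((gcls U G0).card : ℝ)))).trans ?_
    exact Finset.sum_congr rfl fun G hG => by rw [hgavg G hG]
  have hC : Bip.energyIn {i, i'} F
      ≤ ∑ G ∈ gcls U G0, ∑ G' ∈ gcls U G0,
          if H23.SwitchAdj G G' then (f G - f G') ^ 2 else 0 := by
    unfold Bip.energyIn
    have h1 : ∀ x y : Bip.Tab (H24.rF d U G0.1) (H24.cF d U G0.1),
        (if Bip.AdjIn {i, i'} x.1 y.1 then (F x - F y) ^ 2 else 0)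
          ≤ (if H23.SwitchAdj (e.symm x).1 (e.symm y).1
              then (f (e.symm x).1 - f (e.symm y).1) ^ 2 else 0) := by
      intro x y
      by_cases hadj : Bip.AdjIn {i, i'} x.1 y.1
      · have hx : rowOf U (e.symm x).1.1 = x.1 := by
          have := congrArg Subtype.val (e.apply_symm_apply x)
          rwa [H24.frozenEquiv_apply] at this
        have hy : rowOf U (e.symm y).1.1 = y.1 := by
          have := congrArg Subtype.val (e.apply_symm_apply y)
          rwa [H24.frozenEquiv_apply] at this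
        have hsw : H23.SwitchAdj (e.symm x).1 (e.symm y).1 := by
          apply H24.adj_to_switchAdj (U := U) _ _ ((e.symm x).2.symm.trans (e.symm y).2)
          rw [hx, hy]
          exact hadj.mono (Finset.subset_univ _)
        rw [if_pos hadj, if_pos hsw]
      · rw [if_neg hadj]
        split_ifs
        · exact sq_nonneg _
        · exact le_refl _
    refine le_trans (Finset.sum_le_sum fun x _ => Finset.sum_le_sum fun y _ => h1 x y) ?_
    have h2 : ∀ x : Bip.Tab (H24.rF d U G0.1) (H24.cF d U G0.1),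
        ∑ y : Bip.Tab (H24.rF d U G0.1) (H24.cF d U G0.1),
          (if H23.SwitchAdj (e.symm x).1 (e.symm y).1
              then (f (e.symm x).1 - f (e.symm y).1) ^ 2 else 0)
          = ∑ G' ∈ gcls U G0,
              if H23.SwitchAdj (e.symm x).1 G' then (f (e.symm x).1 - f G') ^ 2 else 0 := by
      intro x
      exact hFsum (fun G' => if H23.SwitchAdj (e.symm x).1 G'
        then (f (e.symm x).1 - f G') ^ 2 else 0)
    rw [Finset.sum_congr rfl fun x _ => h2 x]
    exact le_of_eq (hFsum (fun G => ∑ G' ∈ gcls U G0,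
      if H23.SwitchAdj G G' then (f G - f G') ^ 2 else 0))
  rw [hA, hB] at hJ
  rw [Finset.sum_sub_distrib]
  exact le_trans hJ hC

end Pair

/-- **G1 (Johnson).** For two vertices `u ≠ w`, the switches having `{u, w}` as a diagonal have
Poincare constant `2` on every class of graphs agreeing off `{u, w}` (the energy counts
ordered pairs, hence the factor `4`). -/
theorem graph_johnson (u w : Fin n) (huw : u ≠ w) (f : Omega d → ℝ) :
    4 * (Bip.ip f f - Bip.ip f (gavg {u, w} f)) ≤ genergy {u, w} f := by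
  have h1 : 4 * (Bip.ip f f - Bip.ip f (gavg {u, w} f))
      = ∑ G : Omega d, 4 * (f G * f G - f G * gavg {u, w} f G) := by
    unfold Bip.ip
    rw [← Finset.sum_sub_distrib, Finset.mul_sum]
  rw [h1]
  unfold genergy
  apply Pair.sum_le_of_classes (gcls {u, w}) (self_mem_gcls {u, w})
    (fun a b hb => gcls_eq_of_mem {u, w} a b hb)
  intro G0
  rw [← Finset.mul_sum]
  refine le_trans (Pair.class_johnson huw G0 f) (le_of_eq ?_)
  refine Finset.sum_congr rfl fun G hG => ?_
  have hcl : gcls {u, w} G = gcls {u, w} G0 := gcls_eq_of_mem {u, w} G0 G hG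
  rw [← hcl]
  unfold gcls
  rw [Finset.sum_filter]
  refine Finset.sum_congr rfl fun G' _ => ?_
  by_cases hag : GAgree {u, w} G.1 G'.1
  · by_cases hsw : H23.SwitchAdj G G'
    · rw [if_pos hag, if_pos hsw, if_pos ⟨hag, hsw⟩]
    · rw [if_pos hag, if_neg hsw, if_neg (fun h => hsw h.2)]
  · rw [if_neg hag, if_neg (fun h => hag h.1)]

namespace Pair

theorem sym2_ne_left {x y p q : Fin n} (hx : x ≠ p) (hy : y ≠ p) : s(x, y) ≠ s(p, q) := by
  intro h
  have h1 : p ∈ s(x, y) := by
    rw [h]
    exact Sym2.mem_mk_left p q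
  rw [Sym2.mem_iff] at h1
  rcases h1 with h1 | h1
  · exact hx h1.symm
  · exact hy h1.symm

theorem sym2_ne_right {x y p q : Fin n} (hx : x ≠ q) (hy : y ≠ q) : s(x, y) ≠ s(p, q) := by
  rw [Sym2.eq_swap (a := p)]
  exact sym2_ne_left hx hy

/-- The explicit form of a switch between two distinct graphs. -/
theorem switchAdj_explicit {G G' : Omega d} (h : H23.SwitchAdj G G') :
    ∃ a b c e : Fin n, a ≠ b ∧ a ≠ c ∧ a ≠ e ∧ b ≠ c ∧ b ≠ e ∧ c ≠ e ∧
      s(a, b) ∈ G.1 ∧ s(c, e) ∈ G.1 ∧ s(a, c) ∉ G.1 ∧ s(b, e) ∉ G.1 ∧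
      G'.1 = (G.1 \ {s(a, b), s(c, e)}) ∪ {s(a, c), s(b, e)} := by
  obtain ⟨hne, p, hp⟩ := h
  refine ⟨p.1.1, p.1.2.1, p.1.2.2.1, p.1.2.2.2, p.2.1, p.2.2.1, p.2.2.2.1, p.2.2.2.2.1,
    p.2.2.2.2.2.1, p.2.2.2.2.2.2, ?_⟩
  have hval : G'.1 = switchSet G.1 p.1.1 p.1.2.1 p.1.2.2.1 p.1.2.2.2 := by
    rw [← hp]
    rfl
  unfold switchSet at hval
  by_cases hc : s(p.1.1, p.1.2.1) ∈ G.1 ∧ s(p.1.2.2.1, p.1.2.2.2) ∈ G.1 ∧
      s(p.1.1, p.1.2.2.1) ∉ G.1 ∧ s(p.1.2.1, p.1.2.2.2) ∉ G.1
  · rw [if_pos hc] at hval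
    exact ⟨hc.1, hc.2.1, hc.2.2.1, hc.2.2.2, hval⟩
  · rw [if_neg hc] at hval
    exact absurd (Subtype.ext hval.symm) hne

/-- The two diagonals: the two-element sets off which the two graphs of a switch agree. -/
theorem gagree_pair_iff {E E' : Finset (Sym2 (Fin n))} {a b c e : Fin n}
    (hab : a ≠ b) (hac : a ≠ c) (hae : a ≠ e) (hbc : b ≠ c) (hbe : b ≠ e) (_hce : c ≠ e)
    (h1 : s(a, b) ∈ E) (h2 : s(c, e) ∈ E) (h3 : s(a, c) ∉ E) (h4 : s(b, e) ∉ E)
    (hE' : E' = (E \ {s(a, b), s(c, e)}) ∪ {s(a, c), s(b, e)})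
    (W : Finset (Fin n)) (hW : W.card = 2) :
    GAgree W E E' ↔ W = {a, e} ∨ W = {b, c} := by
  have mem' : ∀ z : Sym2 (Fin n), z ∈ E' ↔
      (z ∈ E ∧ ¬ (z = s(a, b) ∨ z = s(c, e))) ∨ z = s(a, c) ∨ z = s(b, e) := by
    intro z
    rw [hE']
    simp only [mem_union, mem_sdiff, mem_insert, mem_singleton]
  constructor
  · intro h
    have k1 : a ∈ W ∨ b ∈ W := by
      by_contra hcon
      obtain ⟨ha, hb⟩ := not_or.1 hcon
      have h5 := (h a b ha hb).1 h1
      rw [mem'] at h5
      rcases h5 with ⟨_, h5⟩ | h5 | h5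
      · exact h5 (Or.inl rfl)
      · exact sym2_ne_right hac hbc h5
      · exact sym2_ne_right hae hbe h5
    have k2 : c ∈ W ∨ e ∈ W := by
      by_contra hcon
      obtain ⟨hc, he⟩ := not_or.1 hcon
      have h5 := (h c e hc he).1 h2
      rw [mem'] at h5
      rcases h5 with ⟨_, h5⟩ | h5 | h5
      · exact h5 (Or.inr rfl)
      · exact sym2_ne_left (Ne.symm hac) (Ne.symm hae) h5
      · exact sym2_ne_left (Ne.symm hbc) (Ne.symm hbe) h5
    have k3 : a ∈ W ∨ c ∈ W := by
      by_contra hcon
      obtain ⟨ha, hc⟩ := not_or.1 hcon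
      have h5 := (h a c ha hc).2 ((mem' _).2 (Or.inr (Or.inl rfl)))
      exact h3 h5
    have k4 : b ∈ W ∨ e ∈ W := by
      by_contra hcon
      obtain ⟨hb, he⟩ := not_or.1 hcon
      have h5 := (h b e hb he).2 ((mem' _).2 (Or.inr (Or.inr rfl)))
      exact h4 h5
    have two : ∀ p q : Fin n, p ≠ q → p ∈ W → q ∈ W → W = {p, q} := by
      intro p q hpq hp hq
      symm
      apply Finset.eq_of_subset_of_card_le
      · intro z hz
        rw [mem_insert, mem_singleton] at hz
        rcases hz with rfl | rfl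
        · exact hp
        · exact hq
      · rw [hW, Finset.card_pair hpq]
    by_cases ha : a ∈ W
    · rcases k4 with hb | he
      · exfalso
        have hWab := two a b hab ha hb
        rw [hWab] at k2
        simp only [mem_insert, mem_singleton] at k2
        rcases k2 with (h5 | h5) | (h5 | h5)
        · exact hac h5.symm
        · exact hbc h5.symm
        · exact hae h5.symm
        · exact hbe h5.symm
      · exact Or.inl (two a e hae ha he)
    · have hb : b ∈ W := k1.resolve_left ha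
      have hc : c ∈ W := k3.resolve_left ha
      exact Or.inr (two b c hbc hb hc)
  · rintro (rfl | rfl)
    · intro x y hx hy
      rw [mem_insert, mem_singleton, not_or] at hx hy
      rw [mem']
      have n1 : s(x, y) ≠ s(a, b) := sym2_ne_left hx.1 hy.1
      have n2 : s(x, y) ≠ s(c, e) := sym2_ne_right hx.2 hy.2
      have n3 : s(x, y) ≠ s(a, c) := sym2_ne_left hx.1 hy.1
      have n4 : s(x, y) ≠ s(b, e) := sym2_ne_right hx.2 hy.2
      tauto
    · intro x y hx hy
      rw [mem_insert, mem_singleton, not_or] at hx hy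
      rw [mem']
      have n1 : s(x, y) ≠ s(a, b) := sym2_ne_right hx.1 hy.1
      have n2 : s(x, y) ≠ s(c, e) := sym2_ne_left hx.2 hy.2
      have n3 : s(x, y) ≠ s(a, c) := sym2_ne_right hx.2 hy.2
      have n4 : s(x, y) ≠ s(b, e) := sym2_ne_left hx.1 hy.1
      tauto

/-- A switch between two distinct graphs has exactly two diagonals. -/
theorem card_diagonals {G G' : Omega d} (h : H23.SwitchAdj G G') :
    (((univ : Finset (Fin n)).powersetCard 2).filter (fun W => GAgree W G.1 G'.1)).card = 2 := by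
  obtain ⟨a, b, c, e, hab, hac, hae, hbc, hbe, hce, h1, h2, h3, h4, hE'⟩ := switchAdj_explicit h
  have hfilter : ((univ : Finset (Fin n)).powersetCard 2).filter (fun W => GAgree W G.1 G'.1)
      = {{a, e}, {b, c}} := by
    ext W
    simp only [mem_filter, mem_powersetCard, subset_univ, true_and, mem_insert, mem_singleton]
    constructor
    · rintro ⟨hW, hag⟩
      exact (gagree_pair_iff hab hac hae hbc hbe hce h1 h2 h3 h4 hE' W hW).1 hag
    · intro hW
      have hcard : W.card = 2 := by
        rcases hW with rfl | rfl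
        · exact Finset.card_pair hae
        · exact Finset.card_pair hbc
      exact ⟨hcard, (gagree_pair_iff hab hac hae hbc hbe hce h1 h2 h3 h4 hE' W hcard).2 hW⟩
  have hne : ({a, e} : Finset (Fin n)) ≠ {b, c} := by
    intro heq
    have ha : a ∈ ({b, c} : Finset (Fin n)) := by
      rw [← heq]
      simp
    rw [mem_insert, mem_singleton] at ha
    rcases ha with ha | ha
    · exact hab ha
    · exact hac ha
  rw [hfilter, Finset.card_pair hne]

end Pair

/-- **G1 (two diagonals).** Every switch has exactly two diagonals, so the pair energies add up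
to twice the switch energy. -/
theorem genergy_sum (f : Omega d → ℝ) :
    ∑ b ∈ (univ : Finset (Fin n)).powersetCard 2, genergy b f = 2 * H23.switchEnergy d f := by
  unfold genergy H23.switchEnergy
  rw [Finset.sum_comm, Finset.mul_sum]
  refine Finset.sum_congr rfl fun G _ => ?_
  rw [Finset.sum_comm, Finset.mul_sum]
  refine Finset.sum_congr rfl fun G' _ => ?_
  by_cases hsw : H23.SwitchAdj G G'
  · rw [if_pos hsw]
    have hsum : ∑ W ∈ (univ : Finset (Fin n)).powersetCard 2,
        (if GAgree W G.1 G'.1 ∧ H23.SwitchAdj G G' then (f G - f G') ^ 2 else 0)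
        = ∑ W ∈ ((univ : Finset (Fin n)).powersetCard 2).filter (fun W => GAgree W G.1 G'.1),
            (f G - f G') ^ 2 := by
      rw [Finset.sum_filter]
      refine Finset.sum_congr rfl fun W _ => ?_
      by_cases hag : GAgree W G.1 G'.1
      · rw [if_pos ⟨hag, hsw⟩, if_pos hag]
      · rw [if_neg (fun h => hag h.1), if_neg hag]
    rw [hsum, Finset.sum_const, Pair.card_diagonals hsw]
    simp
  · rw [if_neg hsw, mul_zero]
    apply Finset.sum_eq_zero
    intro W _
    rw [if_neg (fun h => hsw h.2)]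

end Vale.Agent.Lib.P335.Gr
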