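import Vale.Agent.Lib.P335.Gr.Transfer
import Vale.Agent.Lib.P335.Bip.Final

/-!
# Pair-level and triple-level inequalities for graph classes

* `graph_three_row`: the triple inequality for the three pair averages inside a vertex triple
  (`graph_three_row_of` is the same statement with the three-row inequality for tables as an
  explicit hypothesis);
* `Triple.graph_johnson3`: the pair-level Poincare inequality with constant `2` for the
  switches having a given pair as a diagonal, obtained through the triple encoding.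
-/

namespace Vale.Agent.Lib.P335.Gr

open Finset
open Classical
open Vale.Agent.Lib.P335
open Vale.Agent.Lib.P335.Bip (ip)

namespace Triple

section table

variable {R C : Type} [Fintype R] [DecidableEq R] [Fintype C] [DecidableEq C]
variable {r : R → ℕ} {c : C → ℕ}

theorem ip_comm' {α : Type} [Fintype α] (f g : α → ℝ) : ip f g = ip g f := by
  unfold ip
  exact sum_congr rfl fun x _ => mul_comm _ _

/-- The three-row inequality without the centering hypothesis. -/
theorem three_row' (i j k : R)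
    (h3 : ∀ f : Bip.Tab r c → ℝ, Bip.avg {i, j, k} f = 0 →
      ip f (Bip.S3 i j k f) ≤ 2 * ip f f)
    (g : Bip.Tab r c → ℝ) :
    ip g (Bip.S3 i j k g) ≤ 2 * ip g g + ip g (Bip.avg {i, j, k} g) := by
  have hjk : ({j, k} : Finset R) ⊆ {i, j, k} := by
    intro a; simp only [mem_insert, mem_singleton]; tauto
  have hik : ({i, k} : Finset R) ⊆ {i, j, k} := by
    intro a; simp only [mem_insert, mem_singleton]; tauto
  have hij : ({i, j} : Finset R) ⊆ {i, j, k} := by
    intro a; simp only [mem_insert, mem_singleton]; tauto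
  have t1 := (Bip.avg_tower _ _ hjk g).2
  have t2 := (Bip.avg_tower _ _ hik g).2
  have t3 := (Bip.avg_tower _ _ hij g).2
  have h0 : Bip.avg {i, j, k} (g - Bip.avg {i, j, k} g) = 0 := by
    rw [Bip.avg_sub, Bip.avg_idem, sub_self]
  have key := h3 _ h0
  have e4 : ip (Bip.avg {i, j, k} g) (Bip.avg {i, j, k} g) = ip g (Bip.avg {i, j, k} g) :=
    (Bip.ip_avg_self _ g).symm
  generalize hm : Bip.avg {i, j, k} g = m at *
  have hS : ∀ x, Bip.S3 i j k (g - m) x = Bip.S3 i j k g x - 3 * m x := by
    intro x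
    simp only [Bip.S3, Bip.avg_sub, Pi.sub_apply, t1, t2, t3]
    ring
  have e1 : ip (g - m) (Bip.S3 i j k (g - m))
      = ip g (Bip.S3 i j k g) - 3 * ip g m - ip m (Bip.S3 i j k g) + 3 * ip m m := by
    unfold ip
    rw [mul_sum, mul_sum, ← sum_sub_distrib, ← sum_sub_distrib, ← sum_add_distrib]
    refine sum_congr rfl fun x _ => ?_
    rw [hS x, Pi.sub_apply]
    ring
  have e2 : ip (g - m) (g - m) = ip g g - 2 * ip g m + ip m m := by
    unfold ip
    rw [mul_sum, ← sum_sub_distrib, ← sum_add_distrib]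
    refine sum_congr rfl fun x _ => ?_
    simp only [Pi.sub_apply]
    ring
  have a1 : ip m (Bip.avg {j, k} g) = ip g m := by
    rw [← Bip.avg_symm, t1, ip_comm']
  have a2 : ip m (Bip.avg {i, k} g) = ip g m := by
    rw [← Bip.avg_symm, t2, ip_comm']
  have a3 : ip m (Bip.avg {i, j} g) = ip g m := by
    rw [← Bip.avg_symm, t3, ip_comm']
  have e3 : ip m (Bip.S3 i j k g) = 3 * ip g m := by
    have : ip m (Bip.S3 i j k g)
        = ip m (Bip.avg {j, k} g) + ip m (Bip.avg {i, k} g) + ip m (Bip.avg {i, j} g) := by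
      unfold ip
      rw [← sum_add_distrib, ← sum_add_distrib]
      refine sum_congr rfl fun x _ => ?_
      simp only [Bip.S3]
      ring
    rw [this, a1, a2, a3]
    ring
  rw [e1, e2, e3, e4] at key
  linarith

end table

variable {n : ℕ} {d : Fin n → ℕ}

/-- A switch of tables inside the rows `b` comes from a switch of graphs with diagonal inside
`b`. -/
theorem adj_lift {T : Finset (Fin n)} (hT3 : T.card = 3) {st : Fin n} (hst : st ∈ T)
    (G0 : Omega d) {b : Finset (Fin n)} (y y' : Bip.Tab (rT T st G0) (cT T st G0))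
    (h : Bip.AdjIn b y.1 y'.1) :
    GAgree b (Ψ hT3 hst G0 y).1 (Ψ hT3 hst G0 y').1 ∧
      H23.SwitchAdj (Ψ hT3 hst G0 y) (Ψ hT3 hst G0 y') := by
  obtain ⟨i, i', j, j', hi, hi', hsw, hy'⟩ := h
  rw [← tbl_Ψ hT3 hst G0 y] at hsw
  obtain ⟨G', hadj, ht', hg⟩ := lift_switch hT3 hst (Ψ hT3 hst G0 y) hsw
  have hsub : ({i, i'} : Finset (Fin n)) ⊆ b := by
    intro a ha
    simp only [mem_insert, mem_singleton] at ha
    rcases ha with rfl | rfl <;> assumption
  have hiT : i ∈ T := (mem_tbl.mp hsw.2.2.1).1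
  have hi'T : i' ∈ T := (mem_tbl.mp hsw.2.2.2.2.2).1
  have hsubT : ({i, i'} : Finset (Fin n)) ⊆ T := by
    intro a ha
    simp only [mem_insert, mem_singleton] at ha
    rcases ha with rfl | rfl <;> assumption
  have hG' : G' = Ψ hT3 hst G0 y' := by
    apply Subtype.ext
    apply eq_of_tbl_eq hT3 hst G'.2 (Ψ hT3 hst G0 y').2
    · exact (hg.mono hsubT).symm.trans (Ψ_agree2 hT3 hst G0 y y')
    · rw [ht', tbl_Ψ, tbl_Ψ, hy']
  rw [← hG']
  exact ⟨hg.mono hsub, hadj⟩

end Triple

variable {n : ℕ} {d : Fin n → ℕ}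

/-- **Triple inequality for graphs.** For three distinct vertices, the three pair averages
satisfy `∑_b <f, gavg b f> ≤ 2 <f, f> + <f, gavg T f>`; equivalently
`∑_b <f, (1 - gavg b) f> ≥ <f, (1 - gavg T) f>`. The three-row inequality for tables is taken
as a hypothesis `h3` in its table form. -/
theorem graph_three_row_of
    (h3 : ∀ (r c : Fin n → ℕ) (i j k : Fin n), i ≠ j → i ≠ k → j ≠ k →
      ∀ f : Bip.Tab r c → ℝ, Bip.avg {i, j, k} f = 0 → ip f (Bip.S3 i j k f) ≤ 2 * ip f f)
    (u v w : Fin n) (huv : u ≠ v) (huw : u ≠ w) (hvw : v ≠ w) (f : Omega d → ℝ) :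
    ip f (gavg {v, w} f) + ip f (gavg {u, w} f) + ip f (gavg {u, v} f)
      ≤ 2 * ip f f + ip f (gavg {u, v, w} f) := by
  have hT3 : ({u, v, w} : Finset (Fin n)).card = 3 :=
    card_eq_three.mpr ⟨u, v, w, huv, huw, hvw, rfl⟩
  have hst : u ∈ ({u, v, w} : Finset (Fin n)) := by simp
  have hvw' : ({v, w} : Finset (Fin n)) ⊆ {u, v, w} := by
    intro a; simp only [mem_insert, mem_singleton]; tauto
  have huw' : ({u, w} : Finset (Fin n)) ⊆ {u, v, w} := by
    intro a; simp only [mem_insert, mem_singleton]; tauto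
  have huv' : ({u, v} : Finset (Fin n)) ⊆ {u, v, w} := by
    intro a; simp only [mem_insert, mem_singleton]; tauto
  have key : 0 ≤ ∑ G : Omega d, (2 * (f G * f G) + f G * gavg {u, v, w} f G
      - (f G * gavg {v, w} f G + f G * gavg {u, w} f G + f G * gavg {u, v} f G)) := by
    apply Triple.sum_nonneg_of_class {u, v, w}
    intro G0
    rw [Triple.sum_class hT3 hst G0]
    have e : ∀ y : Bip.Tab (Triple.rT {u, v, w} u G0) (Triple.cT {u, v, w} u G0),
        (2 * (f (Triple.Ψ hT3 hst G0 y) * f (Triple.Ψ hT3 hst G0 y))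
          + f (Triple.Ψ hT3 hst G0 y) * gavg {u, v, w} f (Triple.Ψ hT3 hst G0 y)
          - (f (Triple.Ψ hT3 hst G0 y) * gavg {v, w} f (Triple.Ψ hT3 hst G0 y)
            + f (Triple.Ψ hT3 hst G0 y) * gavg {u, w} f (Triple.Ψ hT3 hst G0 y)
            + f (Triple.Ψ hT3 hst G0 y) * gavg {u, v} f (Triple.Ψ hT3 hst G0 y)))
        = 2 * (f (Triple.Ψ hT3 hst G0 y) * f (Triple.Ψ hT3 hst G0 y))
          + f (Triple.Ψ hT3 hst G0 y)
              * Bip.avg {u, v, w} (fun y' => f (Triple.Ψ hT3 hst G0 y')) y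
          - f (Triple.Ψ hT3 hst G0 y)
              * Bip.S3 u v w (fun y' => f (Triple.Ψ hT3 hst G0 y')) y := by
      intro y
      rw [Triple.gavg_Ψ hT3 hst G0 (Subset.refl _), Triple.gavg_Ψ hT3 hst G0 hvw',
        Triple.gavg_Ψ hT3 hst G0 huw', Triple.gavg_Ψ hT3 hst G0 huv']
      simp only [Bip.S3]
      ring
    rw [sum_congr rfl (fun y _ => e y)]
    have h := Triple.three_row' u v w (h3 _ _ u v w huv huw hvw)
      (fun y' => f (Triple.Ψ hT3 hst G0 y'))
    unfold ip at h
    rw [sum_sub_distrib, sum_add_distrib, ← mul_sum]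
    linarith
  unfold ip
  rw [sum_sub_distrib, sum_add_distrib, sum_add_distrib, sum_add_distrib, ← mul_sum] at key
  linarith

/-- **Triple inequality for graphs.** For three distinct vertices `u, v, w` and every function
`f` on the realizations of `d`:
`<f, gavg {v,w} f> + <f, gavg {u,w} f> + <f, gavg {u,v} f> ≤ 2 <f, f> + <f, gavg {u,v,w} f>`. -/
theorem graph_three_row (u v w : Fin n) (huv : u ≠ v) (huw : u ≠ w) (hvw : v ≠ w)
    (f : Omega d → ℝ) :
    ip f (gavg {v, w} f) + ip f (gavg {u, w} f) + ip f (gavg {u, v} f)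
      ≤ 2 * ip f f + ip f (gavg {u, v, w} f) :=
  graph_three_row_of
    (fun _ _ i j k hij hik hjk g hg => Bip.three_row i j k hij hik hjk g hg) u v w huv huw hvw f

/-- **Pair level for graphs.** The switches having the pair `{u, w}` as a diagonal have
Poincare constant `2` on every class of the pair (the energy counts ordered pairs, hence the
factor `4`). -/
theorem Triple.graph_johnson3 (u w : Fin n) (huw : u ≠ w) (hn : 3 ≤ n) (f : Omega d → ℝ) :
    4 * (ip f f - ip f (gavg {u, w} f)) ≤ genergy {u, w} f := by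
  have hcard : ({u, w} : Finset (Fin n)).card < (univ : Finset (Fin n)).card := by
    rw [card_pair huw, card_univ, Fintype.card_fin]
    omega
  obtain ⟨v, -, hv⟩ := exists_mem_notMem_of_card_lt_card hcard
  simp only [mem_insert, mem_singleton, not_or] at hv
  have huv : u ≠ v := Ne.symm hv.1
  have hwv : w ≠ v := Ne.symm hv.2
  have hT3 : ({u, w, v} : Finset (Fin n)).card = 3 :=
    card_eq_three.mpr ⟨u, w, v, huw, huv, hwv, rfl⟩
  have hst : u ∈ ({u, w, v} : Finset (Fin n)) := by simp
  have hb : ({u, w} : Finset (Fin n)) ⊆ {u, w, v} := by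
    intro a; simp only [mem_insert, mem_singleton]; tauto
  have key : 0 ≤ ∑ G : Omega d,
      ((∑ G' : Omega d, if (GAgree {u, w} G.1 G'.1 ∧ H23.SwitchAdj G G')
          then (f G - f G') ^ 2 else 0)
        - 4 * (f G * f G) + 4 * (f G * gavg {u, w} f G)) := by
    apply Triple.sum_nonneg_of_class {u, w, v}
    intro G0
    rw [Triple.sum_class hT3 hst G0]
    have hJ := Bip.johnson u w huw (fun y' => f (Triple.Ψ hT3 hst G0 y'))
    have hE : Bip.energyIn {u, w} (fun y' => f (Triple.Ψ hT3 hst G0 y'))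
        ≤ ∑ y : Bip.Tab (Triple.rT {u, w, v} u G0) (Triple.cT {u, w, v} u G0),
            ∑ G' : Omega d,
              if (GAgree {u, w} (Triple.Ψ hT3 hst G0 y).1 G'.1
                  ∧ H23.SwitchAdj (Triple.Ψ hT3 hst G0 y) G')
              then (f (Triple.Ψ hT3 hst G0 y) - f G') ^ 2 else 0 := by
      unfold Bip.energyIn
      refine sum_le_sum fun y _ => ?_
      calc ∑ y' : Bip.Tab (Triple.rT {u, w, v} u G0) (Triple.cT {u, w, v} u G0),
              (if Bip.AdjIn {u, w} y.1 y'.1
                then (f (Triple.Ψ hT3 hst G0 y) - f (Triple.Ψ hT3 hst G0 y')) ^ 2 else 0)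
          ≤ ∑ y' : Bip.Tab (Triple.rT {u, w, v} u G0) (Triple.cT {u, w, v} u G0),
              (if (GAgree {u, w} (Triple.Ψ hT3 hst G0 y).1 (Triple.Ψ hT3 hst G0 y').1
                  ∧ H23.SwitchAdj (Triple.Ψ hT3 hst G0 y) (Triple.Ψ hT3 hst G0 y'))
                then (f (Triple.Ψ hT3 hst G0 y) - f (Triple.Ψ hT3 hst G0 y')) ^ 2 else 0) := by
            refine sum_le_sum fun y' _ => ?_
            by_cases hadj : Bip.AdjIn {u, w} y.1 y'.1
            · rw [if_pos hadj, if_pos (Triple.adj_lift hT3 hst G0 y y' hadj)]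
            · rw [if_neg hadj]
              split_ifs
              · exact sq_nonneg _
              · exact le_refl _
        _ = ∑ G' ∈ univ.image (Triple.Ψ hT3 hst G0),
              (if (GAgree {u, w} (Triple.Ψ hT3 hst G0 y).1 G'.1
                  ∧ H23.SwitchAdj (Triple.Ψ hT3 hst G0 y) G')
                then (f (Triple.Ψ hT3 hst G0 y) - f G') ^ 2 else 0) := by
            rw [sum_image (fun _ _ _ _ h => Triple.Ψ_injective hT3 hst G0 h)]
        _ ≤ ∑ G' : Omega d,
              (if (GAgree {u, w} (Triple.Ψ hT3 hst G0 y).1 G'.1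
                  ∧ H23.SwitchAdj (Triple.Ψ hT3 hst G0 y) G')
                then (f (Triple.Ψ hT3 hst G0 y) - f G') ^ 2 else 0) := by
            apply sum_le_sum_of_subset_of_nonneg (subset_univ _)
            intro G' _ _
            split_ifs
            · exact sq_nonneg _
            · exact le_refl _
    rw [sum_add_distrib, sum_sub_distrib]
    have e2 : ∑ y : Bip.Tab (Triple.rT {u, w, v} u G0) (Triple.cT {u, w, v} u G0),
        4 * (f (Triple.Ψ hT3 hst G0 y) * f (Triple.Ψ hT3 hst G0 y))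
        = 4 * ip (fun y' => f (Triple.Ψ hT3 hst G0 y'))
            (fun y' => f (Triple.Ψ hT3 hst G0 y')) := by
      unfold ip
      rw [mul_sum]
    have e3 : ∑ y : Bip.Tab (Triple.rT {u, w, v} u G0) (Triple.cT {u, w, v} u G0),
        4 * (f (Triple.Ψ hT3 hst G0 y) * gavg {u, w} f (Triple.Ψ hT3 hst G0 y))
        = 4 * ip (fun y' => f (Triple.Ψ hT3 hst G0 y'))
            (Bip.avg {u, w} (fun y' => f (Triple.Ψ hT3 hst G0 y'))) := by
      unfold ip
      rw [mul_sum]
      refine sum_congr rfl fun y _ => ?_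
      rw [Triple.gavg_Ψ hT3 hst G0 hb]
    rw [e2, e3]
    linarith
  unfold genergy ip
  rw [sum_add_distrib, sum_sub_distrib, ← mul_sum, ← mul_sum] at key
  linarith

end Vale.Agent.Lib.P335.Gr
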