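import Vale.Agent.Lib.P335.Gr.Lift
import Vale.Agent.Lib.P335.Bip.Johnson

/-!
# Transfer between a triple class of graphs and a class of tables

For a reference graph `G0` and a vertex triple `T`, the graphs that agree with `G0` off `T`
are in bijection with all tables having the row sizes and column counts of the table of `G0`.
The bijection matches the pair classes inside `T` with the row-pair classes of tables, so the
pair-level and triple-level inequalities for tables transfer to graphs.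
-/

namespace Vale.Agent.Lib.P335.Gr

namespace Triple

open Finset
open Classical
open Vale.Agent.Lib.P335
open Vale.Agent.Lib.P335.Bip (ip)

variable {n : ℕ} {d : Fin n → ℕ}

/-- Row sizes of the tables of the class of `G0`. -/
noncomputable def rT (T : Finset (Fin n)) (st : Fin n) (G0 : Omega d) : Fin n → ℕ :=
  fun x => (tbl T st G0.1 x).card

/-- Column counts of the tables of the class of `G0`. -/
noncomputable def cT (T : Finset (Fin n)) (st : Fin n) (G0 : Omega d) : Fin n → ℕ :=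
  fun z => (univ.filter (fun x => z ∈ tbl T st G0.1 x)).card

/-- The table of a graph of the class of `G0`. -/
noncomputable def Φ {T : Finset (Fin n)} (hT3 : T.card = 3) {st : Fin n} (hst : st ∈ T)
    (G0 G : Omega d) (hG : GAgree T G0.1 G.1) : Bip.Tab (rT T st G0) (cT T st G0) :=
  ⟨tbl T st G.1, isTable_tbl hT3 hst G0.2 G.2 hG⟩

theorem row_empty {T : Finset (Fin n)} {st : Fin n} {G0 : Omega d}
    (y : Bip.Tab (rT T st G0) (cT T st G0)) {x : Fin n} (hx : x ∉ T) : y.1 x = ∅ := by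
  have hy : (y.1 x).card = (tbl T st G0.1 x).card := y.2.1 x
  rw [tbl_of_not_mem hx, card_empty] at hy
  exact card_eq_zero.mp hy

theorem agreeOff_T {T : Finset (Fin n)} {st : Fin n} {G0 : Omega d}
    (y y' : Bip.Tab (rT T st G0) (cT T st G0)) : Bip.AgreeOff T y.1 y'.1 := by
  intro x hx
  rw [row_empty y hx, row_empty y' hx]

/-- Every table with the margins of the class is the table of a graph of the class. -/
theorem surj {T : Finset (Fin n)} (hT3 : T.card = 3) {st : Fin n} (hst : st ∈ T)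
    (G0 : Omega d) (y : Bip.Tab (rT T st G0) (cT T st G0)) :
    ∃ G : Omega d, GAgree T G0.1 G.1 ∧ tbl T st G.1 = y.1 := by
  have hc := Bip.conn T (Φ hT3 hst G0 G0 (GAgree.refl _ _)) y (agreeOff_T _ _)
  induction hc with
  | refl => exact ⟨G0, GAgree.refl _ _, rfl⟩
  | tail _ hadj ih =>
    obtain ⟨G, hG, ht⟩ := ih
    obtain ⟨i, i', j, j', hi, hi', hsw, hy⟩ := hadj
    rw [← ht] at hsw
    obtain ⟨G', -, ht', hg⟩ := lift_switch hT3 hst G hsw
    refine ⟨G', hG.trans (hg.mono ?_), ?_⟩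
    · intro a ha
      simp only [mem_insert, mem_singleton] at ha
      rcases ha with rfl | rfl <;> assumption
    · rw [ht', ht, hy]

/-- The graph of the class of `G0` with a given table. -/
noncomputable def Ψ {T : Finset (Fin n)} (hT3 : T.card = 3) {st : Fin n} (hst : st ∈ T)
    (G0 : Omega d) (y : Bip.Tab (rT T st G0) (cT T st G0)) : Omega d :=
  Classical.choose (surj hT3 hst G0 y)

theorem Ψ_agree {T : Finset (Fin n)} (hT3 : T.card = 3) {st : Fin n} (hst : st ∈ T)
    (G0 : Omega d) (y : Bip.Tab (rT T st G0) (cT T st G0)) :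
    GAgree T G0.1 (Ψ hT3 hst G0 y).1 :=
  (Classical.choose_spec (surj hT3 hst G0 y)).1

theorem tbl_Ψ {T : Finset (Fin n)} (hT3 : T.card = 3) {st : Fin n} (hst : st ∈ T)
    (G0 : Omega d) (y : Bip.Tab (rT T st G0) (cT T st G0)) :
    tbl T st (Ψ hT3 hst G0 y).1 = y.1 :=
  (Classical.choose_spec (surj hT3 hst G0 y)).2

theorem Ψ_agree2 {T : Finset (Fin n)} (hT3 : T.card = 3) {st : Fin n} (hst : st ∈ T)
    (G0 : Omega d) (y y' : Bip.Tab (rT T st G0) (cT T st G0)) :
    GAgree T (Ψ hT3 hst G0 y).1 (Ψ hT3 hst G0 y').1 :=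
  (Ψ_agree hT3 hst G0 y).symm.trans (Ψ_agree hT3 hst G0 y')

theorem Ψ_Φ {T : Finset (Fin n)} (hT3 : T.card = 3) {st : Fin n} (hst : st ∈ T)
    (G0 G : Omega d) (hG : GAgree T G0.1 G.1) : Ψ hT3 hst G0 (Φ hT3 hst G0 G hG) = G := by
  apply Subtype.ext
  apply eq_of_tbl_eq hT3 hst (Ψ hT3 hst G0 _).2 G.2 ((Ψ_agree hT3 hst G0 _).symm.trans hG)
  rw [tbl_Ψ]
  rfl

theorem Ψ_injective {T : Finset (Fin n)} (hT3 : T.card = 3) {st : Fin n} (hst : st ∈ T)
    (G0 : Omega d) : Function.Injective (Ψ hT3 hst G0) := by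
  intro y y' h
  have e := tbl_Ψ hT3 hst G0 y
  rw [h, tbl_Ψ] at e
  exact Subtype.ext e.symm

/-- The pair (or triple) class of a graph is the image of the corresponding class of tables. -/
theorem gcls_eq_image {T : Finset (Fin n)} (hT3 : T.card = 3) {st : Fin n} (hst : st ∈ T)
    (G0 : Omega d) {b : Finset (Fin n)} (hb : b ⊆ T) (y : Bip.Tab (rT T st G0) (cT T st G0)) :
    gcls b (Ψ hT3 hst G0 y) = (Bip.cls b y).image (Ψ hT3 hst G0) := by
  ext G'
  rw [mem_gcls, mem_image]
  constructor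
  · intro hg
    have hG' : GAgree T G0.1 G'.1 := (Ψ_agree hT3 hst G0 y).trans (hg.mono hb)
    refine ⟨Φ hT3 hst G0 G' hG', ?_, Ψ_Φ hT3 hst G0 G' hG'⟩
    rw [Bip.mem_cls]
    have h1 := agreeOff_tbl (st := st) hT3 (Ψ hT3 hst G0 y).2 G'.2 (hg.mono hb) hb hg
    rw [tbl_Ψ] at h1
    exact h1
  · rintro ⟨y', hy', rfl⟩
    rw [Bip.mem_cls] at hy'
    apply gagree_of_tbl hT3 hst (Ψ hT3 hst G0 y).2 (Ψ hT3 hst G0 y').2
      (Ψ_agree2 hT3 hst G0 y y')
    rw [tbl_Ψ, tbl_Ψ]
    exact hy'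

theorem gavg_Ψ {T : Finset (Fin n)} (hT3 : T.card = 3) {st : Fin n} (hst : st ∈ T)
    (G0 : Omega d) {b : Finset (Fin n)} (hb : b ⊆ T) (f : Omega d → ℝ)
    (y : Bip.Tab (rT T st G0) (cT T st G0)) :
    gavg b f (Ψ hT3 hst G0 y) = Bip.avg b (fun y' => f (Ψ hT3 hst G0 y')) y := by
  rw [gavg_apply, Bip.avg_apply, gcls_eq_image hT3 hst G0 hb y,
    sum_image (fun _ _ _ _ h => Ψ_injective hT3 hst G0 h),
    card_image_of_injective _ (Ψ_injective hT3 hst G0)]

theorem cls_T_univ {T : Finset (Fin n)} {st : Fin n} {G0 : Omega d}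
    (y : Bip.Tab (rT T st G0) (cT T st G0)) : Bip.cls T y = univ := by
  ext y'
  simp only [Bip.mem_cls, mem_univ, iff_true]
  exact agreeOff_T y y'

/-- Sums over a triple class of graphs are sums over all tables. -/
theorem sum_class {T : Finset (Fin n)} (hT3 : T.card = 3) {st : Fin n} (hst : st ∈ T)
    (G0 : Omega d) (F : Omega d → ℝ) :
    ∑ G ∈ gcls T G0, F G = ∑ y : Bip.Tab (rT T st G0) (cT T st G0), F (Ψ hT3 hst G0 y) := by
  have e : G0 = Ψ hT3 hst G0 (Φ hT3 hst G0 G0 (GAgree.refl _ _)) := (Ψ_Φ hT3 hst G0 G0 _).symm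
  conv_lhs => rw [e]
  rw [gcls_eq_image hT3 hst G0 (Subset.refl T), cls_T_univ,
    sum_image (fun _ _ _ _ h => Ψ_injective hT3 hst G0 h)]

/-- A function whose sums over all classes are nonnegative has a nonnegative total sum. -/
theorem sum_nonneg_of_class (W : Finset (Fin n)) (F : Omega d → ℝ)
    (h : ∀ G0 : Omega d, 0 ≤ ∑ G ∈ gcls W G0, F G) : 0 ≤ ∑ G, F G := by
  have h1 := gavg_symm W F (fun _ => (1 : ℝ))
  rw [gavg_const] at h1
  unfold ip at h1
  simp only [mul_one] at h1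
  rw [← h1]
  exact sum_nonneg fun G _ => div_nonneg (h G) (Nat.cast_nonneg _)

end Triple

end Vale.Agent.Lib.P335.Gr
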