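import Vale.Agent.Lib.P335.Gr.Avg
import Vale.Agent.Lib.P335.Bip.Basic
import Vale.Agent.Lib.P335.Split

/-!
# The table of a graph with respect to a vertex triple

For a set `T` of three vertices and a graph `E`, the table of `E` has the vertices of `T` as
its nonempty rows. Row `x` contains the neighbours of `x` outside `T` and, in addition, one
virtual column `st` (a vertex of `T`, reused as a column index) exactly when the pair of the
other two vertices of `T` is not an edge. On a class of graphs that agree off `T` and have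
the same degrees, all tables have the same row sizes and column counts, the table determines
the graph, and the classes of pairs inside `T` correspond to the row-pair classes of tables.
-/

namespace Vale.Agent.Lib.P335.Gr

namespace Triple

open Finset
open Classical
open Vale.Agent.Lib.P335

variable {n : ℕ}

/-- Indicator of an edge. -/
def ind (E : Finset (Sym2 (Fin n))) (a b : Fin n) : ℕ := if s(a, b) ∈ E then 1 else 0

theorem ind_comm (E : Finset (Sym2 (Fin n))) (a b : Fin n) : ind E a b = ind E b a := by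
  unfold ind
  rw [Sym2.eq_swap]

theorem ind_self {d : Fin n → ℕ} {E : Finset (Sym2 (Fin n))} (hE : IsRealization d E)
    (a : Fin n) : ind E a a = 0 := by
  unfold ind
  rw [if_neg (not_mem_nbrs_self hE a)]

/-- The virtual entry of row `x`: no pair of distinct vertices of `T` other than `x` is an
edge. -/
def virt (T : Finset (Fin n)) (E : Finset (Sym2 (Fin n))) (x : Fin n) : Prop :=
  ∀ y1 ∈ T, ∀ y2 ∈ T, y1 ≠ x → y2 ≠ x → y1 ≠ y2 → s(y1, y2) ∉ E

theorem virt_iff {T : Finset (Fin n)} {E : Finset (Sym2 (Fin n))} {x y1 y2 : Fin n}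
    (hT : T = {x, y1, y2}) (h1 : x ≠ y1) (h2 : x ≠ y2) (h12 : y1 ≠ y2) :
    virt T E x ↔ s(y1, y2) ∉ E := by
  constructor
  · intro h
    exact h y1 (by simp [hT]) y2 (by simp [hT]) (Ne.symm h1) (Ne.symm h2) h12
  · intro h a ha b hb hax hbx hab
    rw [hT] at ha hb
    simp only [mem_insert, mem_singleton] at ha hb
    rcases ha with ha | ha | ha
    · exact absurd ha hax
    · rcases hb with hb | hb | hb
      · exact absurd hb hbx
      · exact absurd (ha.trans hb.symm) hab
      · rw [ha, hb]; exact h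
    · rcases hb with hb | hb | hb
      · exact absurd hb hbx
      · rw [ha, hb, Sym2.eq_swap]; exact h
      · exact absurd (ha.trans hb.symm) hab

theorem virt_congr {T : Finset (Fin n)} {E E' : Finset (Sym2 (Fin n))} {x : Fin n}
    (h : ∀ y1 ∈ T, ∀ y2 ∈ T, (s(y1, y2) ∈ E ↔ s(y1, y2) ∈ E')) : virt T E x ↔ virt T E' x := by
  unfold virt
  constructor
  · intro hv y1 h1 y2 h2 a b c hh
    exact hv y1 h1 y2 h2 a b c ((h y1 h1 y2 h2).mpr hh)
  · intro hv y1 h1 y2 h2 a b c hh
    exact hv y1 h1 y2 h2 a b c ((h y1 h1 y2 h2).mp hh)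

/-- The cell `(x, z)` of the table is occupied. -/
def cell (T : Finset (Fin n)) (st : Fin n) (E : Finset (Sym2 (Fin n))) (x z : Fin n) : Prop :=
  x ∈ T ∧ ((z ∉ T ∧ s(x, z) ∈ E) ∨ (z = st ∧ virt T E x))

/-- The table of the graph `E` with respect to the triple `T` and the virtual column `st`. -/
noncomputable def tbl (T : Finset (Fin n)) (st : Fin n) (E : Finset (Sym2 (Fin n))) :
    Fin n → Finset (Fin n) := fun x => univ.filter (fun z => cell T st E x z)

theorem mem_tbl {T : Finset (Fin n)} {st : Fin n} {E : Finset (Sym2 (Fin n))} {x z : Fin n} :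
    z ∈ tbl T st E x ↔ cell T st E x z := by
  simp [tbl]

theorem tbl_of_not_mem {T : Finset (Fin n)} {st : Fin n} {E : Finset (Sym2 (Fin n))} {x : Fin n}
    (hx : x ∉ T) : tbl T st E x = ∅ := by
  ext z
  simp [mem_tbl, cell, hx]

theorem mem_tbl_real {T : Finset (Fin n)} {st : Fin n} (hst : st ∈ T)
    {E : Finset (Sym2 (Fin n))} {x z : Fin n} (hx : x ∈ T) (hz : z ∉ T) :
    z ∈ tbl T st E x ↔ s(x, z) ∈ E := by
  have hzs : z ≠ st := fun h => hz (h ▸ hst)
  simp [mem_tbl, cell, hx, hz, hzs]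

theorem mem_tbl_star {T : Finset (Fin n)} {st : Fin n} (hst : st ∈ T)
    {E : Finset (Sym2 (Fin n))} {x : Fin n} (hx : x ∈ T) :
    st ∈ tbl T st E x ↔ virt T E x := by
  simp [mem_tbl, cell, hx, hst]

/-! ### Enumerations of a three-element set -/

theorem enum_of_mem {T : Finset (Fin n)} (hT3 : T.card = 3) {a : Fin n} (ha : a ∈ T) :
    ∃ b1 b2, a ≠ b1 ∧ a ≠ b2 ∧ b1 ≠ b2 ∧ T = {a, b1, b2} := by
  obtain ⟨x, y, z, hxy, hxz, hyz, rfl⟩ := card_eq_three.mp hT3
  simp only [mem_insert, mem_singleton] at ha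
  rcases ha with rfl | rfl | rfl
  · exact ⟨y, z, hxy, hxz, hyz, rfl⟩
  · refine ⟨x, z, Ne.symm hxy, hyz, hxz, ?_⟩
    ext t; simp only [mem_insert, mem_singleton]; tauto
  · refine ⟨x, y, Ne.symm hxz, Ne.symm hyz, hxy, ?_⟩
    ext t; simp only [mem_insert, mem_singleton]; tauto

theorem enum_of_mem2 {T : Finset (Fin n)} (hT3 : T.card = 3) {a c : Fin n} (ha : a ∈ T)
    (hc : c ∈ T) (hac : a ≠ c) : ∃ t, a ≠ t ∧ c ≠ t ∧ T = {a, c, t} := by
  obtain ⟨b1, b2, h1, h2, h12, rfl⟩ := enum_of_mem hT3 ha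
  simp only [mem_insert, mem_singleton] at hc
  rcases hc with rfl | rfl | rfl
  · exact absurd rfl hac
  · exact ⟨b2, h2, h12, rfl⟩
  · refine ⟨b1, h1, Ne.symm h12, ?_⟩
    ext t; simp only [mem_insert, mem_singleton]; tauto

theorem sum_three {T : Finset (Fin n)} {x y1 y2 : Fin n} (hT : T = {x, y1, y2}) (h1 : x ≠ y1)
    (h2 : x ≠ y2) (h12 : y1 ≠ y2) (F : Fin n → ℕ) : ∑ a ∈ T, F a = F x + F y1 + F y2 := by
  rw [hT, sum_insert (by simp [h1, h2]), sum_pair h12]
  ring

/-! ### Counting -/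

theorem card_nbIn_T {d : Fin n → ℕ} {E : Finset (Sym2 (Fin n))} (hE : IsRealization d E)
    {T : Finset (Fin n)} {x y1 y2 : Fin n} (hT : T = {x, y1, y2}) (h1 : x ≠ y1) (h2 : x ≠ y2)
    (h12 : y1 ≠ y2) : (nbIn E T x).card = ind E x y1 + ind E x y2 := by
  rw [nbIn, card_filter, sum_three hT h1 h2 h12]
  have := ind_self hE x
  unfold ind at this ⊢
  omega

/-- Twice the number of edges inside `T`. -/
def twoE (T : Finset (Fin n)) (E : Finset (Sym2 (Fin n))) : ℕ := ∑ x ∈ T, (nbIn E T x).card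

theorem twoE_eq {d : Fin n → ℕ} {E : Finset (Sym2 (Fin n))} (hE : IsRealization d E)
    {T : Finset (Fin n)} {x y1 y2 : Fin n} (hT : T = {x, y1, y2}) (h1 : x ≠ y1) (h2 : x ≠ y2)
    (h12 : y1 ≠ y2) : twoE T E = 2 * (ind E x y1 + ind E x y2 + ind E y1 y2) := by
  have hT1 : T = {y1, x, y2} := by
    rw [hT]; ext t; simp only [mem_insert, mem_singleton]; tauto
  have hT2 : T = {y2, x, y1} := by
    rw [hT]; ext t; simp only [mem_insert, mem_singleton]; tauto
  have e0 := card_nbIn_T hE hT h1 h2 h12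
  have e1 := card_nbIn_T hE hT1 (Ne.symm h1) h12 h2
  have e2 := card_nbIn_T hE hT2 (Ne.symm h2) (Ne.symm h12) h1
  rw [twoE, sum_three hT h1 h2 h12, e0, e1, e2, ind_comm E y1 x, ind_comm E y2 x,
    ind_comm E y2 y1]
  ring

theorem nbIn_compl_eq {T : Finset (Fin n)} {E E' : Finset (Sym2 (Fin n))} (h : GAgree T E E')
    {z : Fin n} (hz : z ∉ T) : nbIn E Tᶜ z = nbIn E' Tᶜ z := by
  ext a
  simp only [nbIn, mem_filter, mem_compl]
  constructor
  · rintro ⟨ha, hh⟩
    exact ⟨ha, (h z a hz ha).mp hh⟩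
  · rintro ⟨ha, hh⟩
    exact ⟨ha, (h z a hz ha).mpr hh⟩

theorem card_nbIn_out {d : Fin n → ℕ} {T : Finset (Fin n)} {E E' : Finset (Sym2 (Fin n))}
    (hE : IsRealization d E) (hE' : IsRealization d E') (h : GAgree T E E') {z : Fin n}
    (hz : z ∉ T) : (nbIn E T z).card = (nbIn E' T z).card := by
  have e1 := card_nbrs_inout E T z
  have e2 := card_nbrs_inout E' T z
  rw [hE.2 z] at e1
  rw [hE'.2 z, ← nbIn_compl_eq h hz] at e2
  omega

theorem twoE_congr {d : Fin n → ℕ} {T : Finset (Fin n)} {E E' : Finset (Sym2 (Fin n))}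
    (hE : IsRealization d E) (hE' : IsRealization d E') (h : GAgree T E E') :
    twoE T E = twoE T E' := by
  have s1 : ∀ F : Finset (Sym2 (Fin n)), IsRealization d F →
      ∑ x ∈ T, d x = twoE T F + ∑ w ∈ Tᶜ, (nbIn F T w).card := by
    intro F hF
    rw [← sum_nbIn_comm, twoE, ← sum_add_distrib]
    refine sum_congr rfl fun x _ => ?_
    rw [← hF.2 x, card_nbrs_inout F T x]
  have s3 : ∑ w ∈ Tᶜ, (nbIn E T w).card = ∑ w ∈ Tᶜ, (nbIn E' T w).card :=
    sum_congr rfl fun w hw => card_nbIn_out hE hE' h (mem_compl.mp hw)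
  have a1 := s1 E hE
  have a2 := s1 E' hE'
  omega

theorem card_tbl_row {T : Finset (Fin n)} {st : Fin n} (hst : st ∈ T)
    (E : Finset (Sym2 (Fin n))) {x : Fin n} (hx : x ∈ T) :
    (tbl T st E x).card = (nbIn E Tᶜ x).card + (if virt T E x then 1 else 0) := by
  by_cases hv : virt T E x
  · have e : tbl T st E x = insert st (nbIn E Tᶜ x) := by
      ext z
      simp only [mem_tbl, cell, mem_insert, nbIn, mem_filter, mem_compl]
      tauto
    have hnot : st ∉ nbIn E Tᶜ x := by
      simp [nbIn, hst]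
    rw [e, card_insert_of_notMem hnot, if_pos hv]
  · have e : tbl T st E x = nbIn E Tᶜ x := by
      ext z
      simp only [mem_tbl, cell, nbIn, mem_filter, mem_compl]
      tauto
    rw [e, if_neg hv, add_zero]

/-- The row size of `x` plus the number of inner edges is `d x + 1`. -/
theorem card_tbl_add {d : Fin n → ℕ} {E : Finset (Sym2 (Fin n))} (hE : IsRealization d E)
    {T : Finset (Fin n)} {st : Fin n} (hst : st ∈ T) {x y1 y2 : Fin n} (hT : T = {x, y1, y2})
    (h1 : x ≠ y1) (h2 : x ≠ y2) (h12 : y1 ≠ y2) :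
    (tbl T st E x).card + (ind E x y1 + ind E x y2 + ind E y1 y2) = d x + 1 := by
  have hx : x ∈ T := by simp [hT]
  have e1 := card_tbl_row hst E hx
  have e2 := card_nbrs_inout E T x
  rw [hE.2 x, card_nbIn_T hE hT h1 h2 h12] at e2
  have e3 : (if virt T E x then 1 else 0) + ind E y1 y2 = 1 := by
    unfold ind
    by_cases hh : s(y1, y2) ∈ E
    · rw [if_pos hh, if_neg (fun hv => (virt_iff hT h1 h2 h12).mp hv hh)]
    · rw [if_neg hh, if_pos ((virt_iff hT h1 h2 h12).mpr hh)]
  omega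

theorem col_real {T : Finset (Fin n)} {st : Fin n} (hst : st ∈ T) (E : Finset (Sym2 (Fin n)))
    {z : Fin n} (hz : z ∉ T) : univ.filter (fun x => z ∈ tbl T st E x) = nbIn E T z := by
  ext x
  simp only [mem_filter, mem_univ, true_and, nbIn]
  by_cases hx : x ∈ T
  · rw [mem_tbl_real hst hx hz, Sym2.eq_swap]
    simp [hx]
  · simp [tbl_of_not_mem hx, hx]

theorem col_star {T : Finset (Fin n)} {st : Fin n} (hst : st ∈ T) (E : Finset (Sym2 (Fin n))) :
    univ.filter (fun x => st ∈ tbl T st E x) = T.filter (fun x => virt T E x) := by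
  ext x
  simp only [mem_filter, mem_univ, true_and]
  by_cases hx : x ∈ T
  · rw [mem_tbl_star hst hx]
    simp [hx]
  · simp [tbl_of_not_mem hx, hx]

theorem col_other {T : Finset (Fin n)} {st : Fin n} (E : Finset (Sym2 (Fin n))) {z : Fin n}
    (hz : z ∈ T) (hzs : z ≠ st) : univ.filter (fun x => z ∈ tbl T st E x) = ∅ := by
  ext x
  simp [mem_tbl, cell, hz, hzs]

theorem card_col_star (E : Finset (Sym2 (Fin n)))
    {T : Finset (Fin n)} {x y1 y2 : Fin n} (hT : T = {x, y1, y2}) (h1 : x ≠ y1) (h2 : x ≠ y2)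
    (h12 : y1 ≠ y2) :
    (T.filter (fun a => virt T E a)).card + (ind E x y1 + ind E x y2 + ind E y1 y2) = 3 := by
  have hT1 : T = {y1, x, y2} := by
    rw [hT]; ext t; simp only [mem_insert, mem_singleton]; tauto
  have hT2 : T = {y2, x, y1} := by
    rw [hT]; ext t; simp only [mem_insert, mem_singleton]; tauto
  have v0 := virt_iff (E := E) hT h1 h2 h12
  have v1 := virt_iff (E := E) hT1 (Ne.symm h1) h12 h2
  have v2 := virt_iff (E := E) hT2 (Ne.symm h2) (Ne.symm h12) h1
  rw [card_filter, sum_three hT h1 h2 h12]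
  unfold ind
  by_cases a0 : s(y1, y2) ∈ E <;> by_cases a1 : s(x, y2) ∈ E <;> by_cases a2 : s(x, y1) ∈ E <;>
    simp [v0, v1, v2, a0, a1, a2]

/-- All graphs of a triple class have tables with the same row sizes and column counts. -/
theorem isTable_tbl {d : Fin n → ℕ} {T : Finset (Fin n)} (hT3 : T.card = 3) {st : Fin n}
    (hst : st ∈ T) {E E' : Finset (Sym2 (Fin n))} (hE : IsRealization d E)
    (hE' : IsRealization d E') (h : GAgree T E E') :
    Bip.IsTable (fun x => (tbl T st E x).card)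
      (fun z => (univ.filter (fun x => z ∈ tbl T st E x)).card) (tbl T st E') := by
  have h2E := twoE_congr hE hE' h
  constructor
  · intro a
    by_cases ha : a ∈ T
    · obtain ⟨b1, b2, h1, h2, h12, hT⟩ := enum_of_mem hT3 ha
      have e1 := card_tbl_add hE hst hT h1 h2 h12
      have e2 := card_tbl_add hE' hst hT h1 h2 h12
      have e3 := twoE_eq hE hT h1 h2 h12
      have e4 := twoE_eq hE' hT h1 h2 h12
      show (tbl T st E' a).card = (tbl T st E a).card
      omega
    · show (tbl T st E' a).card = (tbl T st E a).card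
      rw [tbl_of_not_mem ha, tbl_of_not_mem ha]
  · intro z
    show (univ.filter (fun x => z ∈ tbl T st E' x)).card
      = (univ.filter (fun x => z ∈ tbl T st E x)).card
    by_cases hz : z ∈ T
    · by_cases hzs : z = st
      · subst hzs
        obtain ⟨x, y1, y2, h1, h2, h12, hT⟩ := card_eq_three.mp hT3
        have e1 := card_col_star E hT h1 h2 h12
        have e2 := card_col_star E' hT h1 h2 h12
        have e3 := twoE_eq hE hT h1 h2 h12
        have e4 := twoE_eq hE' hT h1 h2 h12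
        rw [col_star hst, col_star hst]
        omega
      · rw [col_other E hz hzs, col_other E' hz hzs]
    · rw [col_real hst E hz, col_real hst E' hz]
      exact (card_nbIn_out hE hE' h hz).symm

/-! ### Pair classes correspond to row-pair classes -/

theorem ind_eq_iff {E E' : Finset (Sym2 (Fin n))} {p q : Fin n} :
    ind E p q = ind E' p q ↔ (s(p, q) ∈ E ↔ s(p, q) ∈ E') := by
  unfold ind
  by_cases h : s(p, q) ∈ E <;> by_cases h' : s(p, q) ∈ E' <;> simp [h, h']

/-- Graphs of a triple class that agree off `b ⊆ T` have tables that agree off the rows `b`. -/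
theorem agreeOff_tbl {d : Fin n → ℕ} {T : Finset (Fin n)} (hT3 : T.card = 3) {st : Fin n}
    {E E' : Finset (Sym2 (Fin n))} (hE : IsRealization d E)
    (hE' : IsRealization d E') (hTT : GAgree T E E') {b : Finset (Fin n)} (hb : b ⊆ T)
    (h : GAgree b E E') : Bip.AgreeOff b (tbl T st E) (tbl T st E') := by
  intro x hx
  by_cases hxT : x ∈ T
  · obtain ⟨y1, y2, h1, h2, h12, hT⟩ := enum_of_mem hT3 hxT
    have hr : ∀ z, z ∉ T → (s(x, z) ∈ E ↔ s(x, z) ∈ E') :=
      fun z hz => h x z hx (fun hzb => hz (hb hzb))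
    have hv : virt T E x ↔ virt T E' x := by
      rw [virt_iff hT h1 h2 h12, virt_iff hT h1 h2 h12]
      have e1 := twoE_eq hE hT h1 h2 h12
      have e2 := twoE_eq hE' hT h1 h2 h12
      have e3 := twoE_congr hE hE' hTT
      have e4 := card_nbrs_inout E T x
      have e5 := card_nbrs_inout E' T x
      rw [hE.2 x, card_nbIn_T hE hT h1 h2 h12] at e4
      rw [hE'.2 x, card_nbIn_T hE' hT h1 h2 h12] at e5
      have e6 : nbIn E Tᶜ x = nbIn E' Tᶜ x := by
        ext z
        simp only [nbIn, mem_filter, mem_compl]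
        constructor
        · rintro ⟨hz, hh⟩
          exact ⟨hz, (hr z hz).mp hh⟩
        · rintro ⟨hz, hh⟩
          exact ⟨hz, (hr z hz).mpr hh⟩
      rw [e6] at e4
      have e7 : ind E y1 y2 = ind E' y1 y2 := by omega
      rw [ind_eq_iff.mp e7]
    ext z
    rw [mem_tbl, mem_tbl]
    unfold cell
    constructor
    · rintro ⟨_, (⟨hz, hh⟩ | ⟨hz, hh⟩)⟩
      · exact ⟨hxT, Or.inl ⟨hz, (hr z hz).mp hh⟩⟩
      · exact ⟨hxT, Or.inr ⟨hz, hv.mp hh⟩⟩
    · rintro ⟨_, (⟨hz, hh⟩ | ⟨hz, hh⟩)⟩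
      · exact ⟨hxT, Or.inl ⟨hz, (hr z hz).mpr hh⟩⟩
      · exact ⟨hxT, Or.inr ⟨hz, hv.mpr hh⟩⟩
  · rw [tbl_of_not_mem hxT, tbl_of_not_mem hxT]

/-- Graphs of a triple class whose tables agree off the rows `b` agree off `b`. -/
theorem gagree_of_tbl {d : Fin n → ℕ} {T : Finset (Fin n)} (hT3 : T.card = 3) {st : Fin n}
    (hst : st ∈ T) {E E' : Finset (Sym2 (Fin n))} (hE : IsRealization d E)
    (hE' : IsRealization d E') (hTT : GAgree T E E') {b : Finset (Fin n)}
    (h : Bip.AgreeOff b (tbl T st E) (tbl T st E')) : GAgree b E E' := by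
  intro a c ha hc
  by_cases haT : a ∈ T
  · by_cases hcT : c ∈ T
    · by_cases hac : a = c
      · subst hac
        have := not_mem_nbrs_self hE a
        have := not_mem_nbrs_self hE' a
        tauto
      · obtain ⟨t, h1, h2, hT⟩ := enum_of_mem2 hT3 haT hcT hac
        have hTc : T = {c, a, t} := by
          rw [hT]; ext z; simp only [mem_insert, mem_singleton]; tauto
        have va : virt T E a ↔ virt T E' a := by
          rw [← mem_tbl_star hst haT, ← mem_tbl_star hst haT, h a ha]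
        have vc : virt T E c ↔ virt T E' c := by
          rw [← mem_tbl_star hst hcT, ← mem_tbl_star hst hcT, h c hc]
        rw [virt_iff hT hac h1 h2, virt_iff hT hac h1 h2, not_iff_not, ← ind_eq_iff] at va
        rw [virt_iff hTc (Ne.symm hac) h2 h1, virt_iff hTc (Ne.symm hac) h2 h1, not_iff_not,
          ← ind_eq_iff] at vc
        have e1 := twoE_eq hE hT hac h1 h2
        have e2 := twoE_eq hE' hT hac h1 h2
        have e3 := twoE_congr hE hE' hTT
        rw [← ind_eq_iff]
        omega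
    · rw [← mem_tbl_real hst haT hcT, ← mem_tbl_real hst haT hcT, h a ha]
  · by_cases hcT : c ∈ T
    · rw [Sym2.eq_swap, ← mem_tbl_real hst hcT haT, ← mem_tbl_real hst hcT haT, h c hc]
    · exact hTT a c haT hcT

/-- The table determines the graph inside a triple class. -/
theorem eq_of_tbl_eq {d : Fin n → ℕ} {T : Finset (Fin n)} (hT3 : T.card = 3) {st : Fin n}
    (hst : st ∈ T) {E E' : Finset (Sym2 (Fin n))} (hE : IsRealization d E)
    (hE' : IsRealization d E') (hTT : GAgree T E E') (h : tbl T st E = tbl T st E') :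
    E = E' := by
  have hg : GAgree ∅ E E' :=
    gagree_of_tbl hT3 hst hE hE' hTT (fun x _ => congrFun h x)
  ext z
  induction z using Sym2.ind with
  | _ a c => exact hg a c (notMem_empty a) (notMem_empty c)

/-! ### Switches -/

/-- The edge set after the switch on `(a, b, c, e)`. -/
def swE (E : Finset (Sym2 (Fin n))) (a b c e : Fin n) : Finset (Sym2 (Fin n)) :=
  (E \ {s(a, b), s(c, e)}) ∪ {s(a, c), s(b, e)}

theorem mem_swE {E : Finset (Sym2 (Fin n))} {a b c e : Fin n} {z : Sym2 (Fin n)} :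
    z ∈ swE E a b c e ↔ (z ∈ E ∧ z ≠ s(a, b) ∧ z ≠ s(c, e)) ∨ z = s(a, c) ∨ z = s(b, e) := by
  simp only [swE, mem_union, mem_sdiff, mem_insert, mem_singleton]
  tauto

theorem agree_swE (E : Finset (Sym2 (Fin n))) (a b c e : Fin n) :
    GAgree {a, e} E (swE E a b c e) := by
  intro x y hx hy
  simp only [mem_insert, mem_singleton, not_or] at hx hy
  rw [mem_swE]
  simp only [ne_eq, Sym2.eq_iff]
  tauto

theorem agree_swE' (E : Finset (Sym2 (Fin n))) (a b c e : Fin n) :
    GAgree {b, c} E (swE E a b c e) := by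
  intro x y hx hy
  simp only [mem_insert, mem_singleton, not_or] at hx hy
  rw [mem_swE]
  simp only [ne_eq, Sym2.eq_iff]
  tauto

theorem exists_switch {d : Fin n → ℕ} (G : Omega d) {a b c e : Fin n} (hab : a ≠ b)
    (hac : a ≠ c) (hae : a ≠ e) (hbc : b ≠ c) (hbe : b ≠ e) (hce : c ≠ e)
    (h1 : s(a, b) ∈ G.1) (h2 : s(c, e) ∈ G.1) (h3 : s(a, c) ∉ G.1) (h4 : s(b, e) ∉ G.1) :
    ∃ G' : Omega d, G'.1 = swE G.1 a b c e ∧ ∃ p : Proposal n, step G p = G' := by
  refine ⟨step G ⟨(a, b, c, e), hab, hac, hae, hbc, hbe, hce⟩, ?_, _, rfl⟩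
  show switchSet G.1 a b c e = _
  unfold switchSet swE
  rw [if_pos ⟨h1, h2, h3, h4⟩]

theorem tbl_eq_swRow_of_rows {T : Finset (Fin n)} {st : Fin n} {E E' : Finset (Sym2 (Fin n))}
    {i i' j j' : Fin n} (hii : i ≠ i')
    (ha : ∀ z, cell T st E' i z ↔ (z = j' ∨ (z ≠ j ∧ cell T st E i z)))
    (hb : ∀ z, cell T st E' i' z ↔ (z = j ∨ (z ≠ j' ∧ cell T st E i' z)))
    (hc : ∀ x z, x ≠ i → x ≠ i' → (cell T st E' x z ↔ cell T st E x z)) :
    tbl T st E' = Bip.swRow (tbl T st E) i i' j j' := by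
  funext x
  by_cases h1 : x = i'
  · subst h1
    rw [Bip.swRow_right]
    ext z
    rw [mem_tbl, hb, mem_insert, mem_erase, mem_tbl]
  · by_cases h2 : x = i
    · subst h2
      rw [Bip.swRow_left _ hii]
      ext z
      rw [mem_tbl, ha, mem_insert, mem_erase, mem_tbl]
    · rw [Bip.swRow_other _ h2 h1]
      ext z
      rw [mem_tbl, mem_tbl, hc x z h2 h1]

end Triple

end Vale.Agent.Lib.P335.Gr
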